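import Vale.Agent.H10.Pattern.Basic

-- This file was written by helper82 (original: Vale/Agent/H82/PatternOnes.lean); it is copied here unchanged
-- (apart from its namespace) so that the hand-ins of helper10 depend on one folder only.

/-!
# The polynomial removal bound for the constant `2 × 2` pattern

`polyRemoval_ones : PolyRemoval (fun _ _ : Fin 2 => true) (1 / 256) 8`.
-/

namespace Vale.Agent.H10.Pattern.Ones

open Finset Vale.Agent.H10.Pattern

/-- the number of increasing pairs inside a finset -/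
def incPairs {α : Type*} [LinearOrder α] (T : Finset α) : ℕ :=
  ((T ×ˢ T).filter (fun p => p.1 < p.2)).card

theorem two_mul_incPairs {α : Type*} [LinearOrder α] (T : Finset α) :
    2 * incPairs T + T.card = T.card * T.card := by
  classical
  have hswap : ((T ×ˢ T).filter (fun p => p.2 < p.1)).card =
      ((T ×ˢ T).filter (fun p => p.1 < p.2)).card := by
    apply Finset.card_nbij' Prod.swap Prod.swap
    · intro p hp
      simp only [Finset.mem_coe, mem_filter, mem_product] at hp ⊢
      exact ⟨⟨hp.1.2, hp.1.1⟩, hp.2⟩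
    · intro p hp
      simp only [Finset.mem_coe, mem_filter, mem_product] at hp ⊢
      exact ⟨⟨hp.1.2, hp.1.1⟩, hp.2⟩
    · intro p _; rfl
    · intro p _; rfl
  have hdiag : ((T ×ˢ T).filter (fun p => p.1 = p.2)).card = T.card := by
    have he : (T ×ˢ T).filter (fun p => p.1 = p.2) = T.diag := by
      ext p
      simp only [mem_filter, mem_product, mem_diag]
      constructor
      · rintro ⟨⟨h1, _⟩, h3⟩
        exact ⟨h1, h3⟩
      · rintro ⟨h1, h3⟩
        exact ⟨⟨h1, h3 ▸ h1⟩, h3⟩
    rw [he, Finset.diag_card]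
  have hsplit : (T ×ˢ T).card = ((T ×ˢ T).filter (fun p => p.1 < p.2)).card +
      ((T ×ˢ T).filter (fun p => p.2 < p.1)).card +
      ((T ×ˢ T).filter (fun p => p.1 = p.2)).card := by
    rw [Finset.card_filter, Finset.card_filter, Finset.card_filter, ← Finset.sum_add_distrib,
      ← Finset.sum_add_distrib, Finset.card_eq_sum_ones]
    apply Finset.sum_congr rfl
    intro p _
    rcases lt_trichotomy p.1 p.2 with h | h | h
    · simp [h, h.ne, not_lt_of_gt h]
    · simp [h]
    · simp [h, h.ne', not_lt_of_gt h]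
  rw [Finset.card_product, hswap, hdiag] at hsplit
  unfold incPairs
  omega


variable {n : ℕ}

/-- rows with a one in column `c` -/
def colSet (A : Fin n → Fin n → Bool) (c : Fin n) : Finset (Fin n) :=
  univ.filter (fun r => A r c = true)

/-- columns in which the rows `r` and `r'` both have a one -/
def comSet (A : Fin n → Fin n → Bool) (r r' : Fin n) : Finset (Fin n) :=
  univ.filter (fun c => A r c = true ∧ A r' c = true)

theorem strictMono_pair {a b : Fin n} (h : a < b) : StrictMono ![a, b] := by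
  intro i j hij
  fin_cases i <;> fin_cases j <;> simp_all

/-- increasing pairs of rows with increasing pairs of common columns inject into the copies -/
theorem sum_incPairs_le_copyCount (A : Fin n → Fin n → Bool) :
    (∑ p : Fin n × Fin n, if p.1 < p.2 then incPairs (comSet A p.1 p.2) else 0) ≤
      copyCount (fun _ _ : Fin 2 => true) A := by
  classical
  let Q : Finset ((Fin n × Fin n) × (Fin n × Fin n)) := univ.filter (fun q =>
    q.1.1 < q.1.2 ∧ q.2.1 < q.2.2 ∧ A q.1.1 q.2.1 = true ∧ A q.1.1 q.2.2 = true ∧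
      A q.1.2 q.2.1 = true ∧ A q.1.2 q.2.2 = true)
  have h1 : Q.card =
      (∑ p : Fin n × Fin n, if p.1 < p.2 then incPairs (comSet A p.1 p.2) else 0) := by
    show (univ.filter _).card = _
    rw [Finset.card_filter]
    refine (Fintype.sum_prod_type _).trans ?_
    apply Finset.sum_congr rfl
    intro p _
    by_cases hp : p.1 < p.2
    · rw [if_pos hp]
      unfold incPairs
      rw [← Finset.card_filter]
      congr 1
      ext c
      simp only [mem_filter, mem_product, comSet, mem_univ, true_and]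
      constructor
      · rintro ⟨-, h5, h1, h3, h2, h4⟩
        exact ⟨⟨⟨h1, h2⟩, h3, h4⟩, h5⟩
      · rintro ⟨⟨⟨h1, h2⟩, h3, h4⟩, h5⟩
        exact ⟨hp, h5, h1, h3, h2, h4⟩
    · rw [if_neg hp]
      apply Finset.sum_eq_zero
      intro c _
      simp [hp]
  rw [← h1, copyCount, ← Set.ncard_coe_finset Q]
  apply Set.ncard_le_ncard_of_injOn (fun q => (![q.1.1, q.1.2], ![q.2.1, q.2.2]))
  · intro q hq
    have hq' : q.1.1 < q.1.2 ∧ q.2.1 < q.2.2 ∧ A q.1.1 q.2.1 = true ∧ A q.1.1 q.2.2 = true ∧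
        A q.1.2 q.2.1 = true ∧ A q.1.2 q.2.2 = true := by
      have := Finset.mem_coe.mp hq
      exact (Finset.mem_filter.mp this).2
    obtain ⟨h1, h2, h3, h4, h5, h6⟩ := hq'
    refine ⟨strictMono_pair h1, strictMono_pair h2, ?_⟩
    intro i j
    fin_cases i <;> fin_cases j <;> simp [h3, h4, h5, h6]
  · intro q _ q' _ h
    simp only [Prod.mk.injEq] at h
    obtain ⟨ha, hb⟩ := h
    have a0 := congrFun ha 0
    have a1 := congrFun ha 1
    have b0 := congrFun hb 0
    have b1 := congrFun hb 1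
    simp only [Matrix.cons_val_zero, Matrix.cons_val_one] at a0 a1 b0 b1
    exact Prod.ext (Prod.ext a0 a1) (Prod.ext b0 b1)

/-- double counting of (increasing row pair, common column) -/
theorem sum_card_comSet (A : Fin n → Fin n → Bool) :
    (∑ p : Fin n × Fin n, if p.1 < p.2 then (comSet A p.1 p.2).card else 0) =
      ∑ c : Fin n, incPairs (colSet A c) := by
  classical
  have hL : ∀ p : Fin n × Fin n, (if p.1 < p.2 then (comSet A p.1 p.2).card else 0) =
      ∑ c : Fin n, if (p.1 < p.2 ∧ A p.1 c = true ∧ A p.2 c = true) then 1 else 0 := by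
    intro p
    by_cases hp : p.1 < p.2
    · rw [if_pos hp, comSet, Finset.card_filter]
      apply Finset.sum_congr rfl
      intro c _
      simp [hp]
    · rw [if_neg hp]
      symm
      apply Finset.sum_eq_zero
      intro c _
      simp [hp]
  have hR : ∀ c : Fin n, incPairs (colSet A c) =
      ∑ p : Fin n × Fin n, if (p.1 < p.2 ∧ A p.1 c = true ∧ A p.2 c = true) then 1 else 0 := by
    intro c
    unfold incPairs
    rw [← Finset.card_filter]
    congr 1
    ext p
    simp only [mem_filter, mem_product, colSet, mem_univ, true_and]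
    tauto
  simp_rw [hL, hR]
  exact Finset.sum_comm

/-- the number of ones is the distance to the zero matrix -/
theorem sum_card_colSet (A : Fin n → Fin n → Bool) :
    (∑ c : Fin n, (colSet A c).card) = diffCard A (fun _ _ => false) := by
  classical
  unfold diffCard
  rw [Finset.card_filter, Fintype.sum_prod_type, Finset.sum_comm]
  apply Finset.sum_congr rfl
  intro c _
  rw [colSet, Finset.card_filter]
  apply Finset.sum_congr rfl
  intro r _
  simp

theorem isFree_zero : IsFree (fun _ _ : Fin 2 => true) (fun _ _ : Fin n => false) := by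
  rw [IsFree, Set.eq_empty_iff_forall_notMem]
  rintro p ⟨-, -, h⟩
  exact Bool.false_ne_true (h 0 0)

theorem arith_core {n ε m S Q Sd St π : ℝ} (hn : 1 ≤ n) (hε0 : 0 < ε) (hε1 : ε < 1)
    (hcase : 4 ≤ ε ^ 2 * n) (hm : ε * n ^ 2 ≤ m)
    (hS : 2 * S = Sd - m) (hCS1 : m ^ 2 ≤ n * Sd)
    (hQ : 2 * Q = St - S) (hCS2 : S ^ 2 ≤ π * St) (hπ : 2 * π ≤ n ^ 2) (hSt : 0 ≤ St) :
    1 / 256 * ε ^ 8 * n ^ 4 ≤ Q := by
  have hn0 : 0 < n := by linarith
  have h1 : 4 ≤ ε * n := by nlinarith [mul_pos hε0 hn0, mul_pos (mul_pos hε0 hn0) (sub_pos.mpr hε1)]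
  have h2 : 4 * n ≤ m := by nlinarith
  have hm0 : 0 < m := by linarith
  have h3 : 3 * m ^ 2 ≤ 8 * n * S := by nlinarith
  have h4 : ε ^ 2 * n ^ 4 ≤ m ^ 2 := by
    have h0 : 0 ≤ ε * n ^ 2 := by positivity
    have := pow_le_pow_left₀ h0 hm 2
    nlinarith
  have h5 : 3 * ε ^ 2 * n ^ 3 ≤ 8 * S := by
    have h : 3 * ε ^ 2 * n ^ 4 ≤ 8 * n * S := by linarith
    by_contra hcon
    have hcon := not_le.mp hcon
    nlinarith
  have h6 : n ^ 2 ≤ S := by
    have hn2 : 0 < n ^ 2 := by positivity
    nlinarith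
  have h7 : S ^ 2 ≤ 2 * n ^ 2 * Q := by
    have a : 2 * S ^ 2 ≤ n ^ 2 * St := by nlinarith
    nlinarith
  have h8 : 9 * ε ^ 4 * n ^ 4 ≤ 128 * Q := by
    have hb : (3 * ε ^ 2 * n ^ 3) ^ 2 ≤ (8 * S) ^ 2 := pow_le_pow_left₀ (by positivity) h5 2
    have hc : 9 * ε ^ 4 * n ^ 6 ≤ 128 * n ^ 2 * Q := by nlinarith
    have hn2 : 0 < n ^ 2 := by positivity
    by_contra hcon
    have hcon := not_le.mp hcon
    nlinarith
  have h9 : ε ^ 8 ≤ ε ^ 4 := pow_le_pow_of_le_one hε0.le hε1.le (by norm_num)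
  have h10 : 0 ≤ n ^ 4 := by positivity
  nlinarith [mul_le_mul_of_nonneg_right h9 h10]


theorem two_mul_incPairs_real {α : Type*} [LinearOrder α] (T : Finset α) :
    2 * (incPairs T : ℝ) = (T.card : ℝ) ^ 2 - (T.card : ℝ) := by
  have h := two_mul_incPairs T
  have h' : (2 * (incPairs T : ℝ) + (T.card : ℝ)) = (T.card : ℝ) * (T.card : ℝ) := by
    exact_mod_cast h
  nlinarith

/-- The polynomial removal bound for the constant `2 × 2` pattern, with `c = 1/256`, `C = 8`. -/
theorem polyRemoval_ones : PolyRemoval (fun _ _ : Fin 2 => true) (1 / 256) 8 := by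
  intro n hn ε hε0 hε1 A hdist
  classical
  have hN1 : (1 : ℝ) ≤ (copyCount (fun _ _ : Fin 2 => true) A : ℝ) := by
    have := one_le_copyCount_of_dist_pos (fun _ _ : Fin 2 => true) A (lt_of_lt_of_le hε0 hdist)
    exact_mod_cast this
  have hnR : (1 : ℝ) ≤ (n : ℝ) := by exact_mod_cast hn
  have e : (2 * 2 : ℕ) = 4 := rfl
  rw [e]
  by_cases hcase : ε ^ 2 * (n : ℝ) < 4
  · have h1 : 0 ≤ ε ^ 2 * (n : ℝ) := by positivity
    have h2 : (ε ^ 2 * (n : ℝ)) ^ 4 ≤ 4 ^ 4 := pow_le_pow_left₀ h1 hcase.le 4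
    have h3 : (1 / 256 : ℝ) * ε ^ 8 * (n : ℝ) ^ 4 = (ε ^ 2 * n) ^ 4 / 256 := by ring
    rw [h3]
    have h4 : (ε ^ 2 * (n : ℝ)) ^ 4 / 256 ≤ 1 := by
      rw [div_le_one (by norm_num)]
      norm_num at h2
      exact h2
    linarith
  · have hcase' : 4 ≤ ε ^ 2 * (n : ℝ) := not_lt.mp hcase
    let Pairs : Finset (Fin n × Fin n) := univ.filter (fun p => p.1 < p.2)
    -- the number of ones
    have hm_ge : ε * (n : ℝ) ^ 2 ≤ ∑ c : Fin n, ((colSet A c).card : ℝ) := by
      have h := dist_le_of_isFree (fun _ _ : Fin 2 => true) A (fun _ _ => false) isFree_zero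
      rw [← sum_card_colSet A] at h
      have h' := le_trans hdist h
      rw [le_div_iff₀ (by positivity)] at h'
      push_cast at h'
      exact h'
    -- S
    have hSnat : (∑ p ∈ Pairs, (comSet A p.1 p.2).card) = ∑ c : Fin n, incPairs (colSet A c) := by
      show (∑ p ∈ univ.filter _, _) = _
      rw [Finset.sum_filter]
      exact sum_card_comSet A
    have hSreal : (∑ p ∈ Pairs, ((comSet A p.1 p.2).card : ℝ)) =
        ∑ c : Fin n, (incPairs (colSet A c) : ℝ) := by
      exact_mod_cast hSnat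
    have hS2 : 2 * (∑ p ∈ Pairs, ((comSet A p.1 p.2).card : ℝ)) =
        (∑ c : Fin n, ((colSet A c).card : ℝ) ^ 2) - ∑ c : Fin n, ((colSet A c).card : ℝ) := by
      rw [hSreal, Finset.mul_sum, ← Finset.sum_sub_distrib]
      apply Finset.sum_congr rfl
      intro c _
      exact two_mul_incPairs_real _
    have hCS1 : (∑ c : Fin n, ((colSet A c).card : ℝ)) ^ 2 ≤
        (n : ℝ) * ∑ c : Fin n, ((colSet A c).card : ℝ) ^ 2 := by
      have h := sq_sum_le_card_mul_sum_sq (s := (univ : Finset (Fin n)))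
        (f := fun c => ((colSet A c).card : ℝ))
      simpa using h
    have hQ2 : 2 * (∑ p ∈ Pairs, (incPairs (comSet A p.1 p.2) : ℝ)) =
        (∑ p ∈ Pairs, ((comSet A p.1 p.2).card : ℝ) ^ 2) -
          ∑ p ∈ Pairs, ((comSet A p.1 p.2).card : ℝ) := by
      rw [Finset.mul_sum, ← Finset.sum_sub_distrib]
      apply Finset.sum_congr rfl
      intro p _
      exact two_mul_incPairs_real _
    have hCS2 : (∑ p ∈ Pairs, ((comSet A p.1 p.2).card : ℝ)) ^ 2 ≤
        (Pairs.card : ℝ) * ∑ p ∈ Pairs, ((comSet A p.1 p.2).card : ℝ) ^ 2 :=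
      sq_sum_le_card_mul_sum_sq
    have hπ : 2 * (Pairs.card : ℝ) ≤ (n : ℝ) ^ 2 := by
      have h1 : Pairs.card = incPairs (univ : Finset (Fin n)) := by
        unfold incPairs
        rw [Finset.univ_product_univ]
      have h2 := two_mul_incPairs (univ : Finset (Fin n))
      rw [Finset.card_univ, Fintype.card_fin, ← h1] at h2
      have h3 : (2 * (Pairs.card : ℝ) + (n : ℝ)) = (n : ℝ) * (n : ℝ) := by exact_mod_cast h2
      nlinarith
    have hSt0 : 0 ≤ ∑ p ∈ Pairs, ((comSet A p.1 p.2).card : ℝ) ^ 2 :=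
      Finset.sum_nonneg (fun p _ => by positivity)
    have hQN : (∑ p ∈ Pairs, (incPairs (comSet A p.1 p.2) : ℝ)) ≤
        (copyCount (fun _ _ : Fin 2 => true) A : ℝ) := by
      have h := sum_incPairs_le_copyCount A
      have h1 : (∑ p ∈ Pairs, incPairs (comSet A p.1 p.2)) =
          ∑ p : Fin n × Fin n, if p.1 < p.2 then incPairs (comSet A p.1 p.2) else 0 := by
        show (∑ p ∈ univ.filter _, _) = _
        rw [Finset.sum_filter]
      rw [← h1] at h
      exact_mod_cast h
    exact le_trans (arith_core hnR hε0 hε1 hcase' hm_ge hS2 hCS1 hQ2 hCS2 hπ hSt0) hQN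

end Vale.Agent.H10.Pattern.Ones
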