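import Vale.Agent.H10.Pattern.Basic
import Vale.Agent.H10.Removal.Sort

-- This file was written by helper79 (original: Vale/Agent/H79/PatternRows.lean); it is copied here unchanged
-- (apart from its namespace) so that the hand-ins of helper10 depend on one folder only.

/-!
# Polynomial removal for the `2 × 2` pattern with constant rows `[[1, 1], [0, 0]]`

A copy is a pair of rows `r < r'` and a pair of columns `c < c'` with ones in row `r` and zeros
in row `r'`.  A matrix with few copies is made copy-free by sorting every column.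
-/

namespace Vale.Agent.H10.Pattern.Rows

open Finset Vale.Agent.H10.Pattern

variable {n : ℕ}

/-- A matrix all of whose columns read `0…01…1` from top to bottom has no copy. -/
theorem isFree_rows_of_sorted (B : Fin n → Fin n → Bool)
    (hB : ∀ c r r', B r c = true → r < r' → B r' c = true) :
    IsFree ![![true, true], ![false, false]] B := by
  rw [IsFree, Set.eq_empty_iff_forall_notMem]
  rintro p ⟨h1, -, h3⟩
  have ha : B (p.1 0) (p.2 0) = true := by rw [h3]; rfl
  have hb : B (p.1 1) (p.2 0) = false := by rw [h3]; rfl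
  have hc := hB (p.2 0) (p.1 0) (p.1 1) ha (h1 (by decide))
  rw [hb] at hc
  exact Bool.false_ne_true hc

/-- The quadruples `((r, r'), (c, c'))` that form a copy. -/
def rowQuad (A : Fin n → Fin n → Bool) : Finset ((Fin n × Fin n) × (Fin n × Fin n)) :=
  univ.filter fun x => x.1.1 < x.1.2 ∧ x.2.1 < x.2.2 ∧ A x.1.1 x.2.1 = true ∧
    A x.1.1 x.2.2 = true ∧ A x.1.2 x.2.1 = false ∧ A x.1.2 x.2.2 = false

theorem rowQuad_card_le (A : Fin n → Fin n → Bool) :
    (rowQuad A).card ≤ copyCount ![![true, true], ![false, false]] A := by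
  classical
  rw [copyCount, ← Set.ncard_coe_finset]
  set f : (Fin n × Fin n) × (Fin n × Fin n) → (Fin 2 → Fin n) × (Fin 2 → Fin n) :=
    fun x => (![x.1.1, x.1.2], ![x.2.1, x.2.2]) with hf
  have hinj : Function.Injective f := by
    intro x y hxy
    rw [hf] at hxy
    simp only [Prod.mk.injEq] at hxy
    obtain ⟨ha, hb⟩ := hxy
    have a0 := congrFun ha 0
    have a1 := congrFun ha 1
    have b0 := congrFun hb 0
    have b1 := congrFun hb 1
    simp only [Matrix.cons_val_zero, Matrix.cons_val_one] at a0 a1 b0 b1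
    exact Prod.ext (Prod.ext a0 a1) (Prod.ext b0 b1)
  have hsub : f '' ((rowQuad A : Finset _) : Set _)
      ⊆ copies ![![true, true], ![false, false]] A := by
    rintro _ ⟨x, hx, rfl⟩
    rw [mem_coe, rowQuad, mem_filter] at hx
    obtain ⟨_, hij, hcc, e1, e2, e3, e4⟩ := hx
    refine ⟨?_, ?_, ?_⟩
    · intro i j hlt
      fin_cases i <;> fin_cases j <;> simp_all [hf]
    · intro i j hlt
      fin_cases i <;> fin_cases j <;> simp_all [hf]
    · intro i j
      fin_cases i <;> fin_cases j <;> simp [hf, e1, e2, e3, e4]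
  calc _ = (f '' ((rowQuad A : Finset _) : Set _)).ncard :=
        (Set.ncard_image_of_injective _ hinj).symm
    _ ≤ (copies ![![true, true], ![false, false]] A).ncard :=
        Set.ncard_le_ncard hsub (Set.toFinite _)

/-- Columns in which row `r` has a one and row `r'` has a zero. -/
def colSet (A : Fin n → Fin n → Bool) (r r' : Fin n) : Finset (Fin n) :=
  univ.filter fun c => A r c = true ∧ A r' c = false

/-- The number of such columns for `r < r'` (and `0` otherwise). -/
def tnum (A : Fin n → Fin n → Bool) (rr : Fin n × Fin n) : ℕ :=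
  if rr.1 < rr.2 then (colSet A rr.1 rr.2).card else 0

theorem card_mul_card_le_pairs (T : Finset (Fin n)) :
    T.card * T.card ≤ T.card + 2 * ((T ×ˢ T).filter fun p => p.1 < p.2).card := by
  have h1 : (T ×ˢ T) ⊆ (((T ×ˢ T).filter fun p => p.1 < p.2) ∪
      ((T ×ˢ T).filter fun p => p.2 < p.1)) ∪ ((T ×ˢ T).filter fun p => p.1 = p.2) := by
    intro p hp
    rcases lt_trichotomy p.1 p.2 with h | h | h
    · simp [hp, h]
    · simp [hp, h]
    · simp [hp, h]
  have h2 : ((T ×ˢ T).filter fun p => p.2 < p.1).card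
      ≤ ((T ×ˢ T).filter fun p => p.1 < p.2).card := by
    apply card_le_card_of_injOn (fun p => (p.2, p.1))
    · intro p hp
      simp only [coe_filter, mem_product, Set.mem_setOf_eq] at hp ⊢
      exact ⟨⟨hp.1.2, hp.1.1⟩, hp.2⟩
    · intro p _ q _ hpq
      simp only [Prod.mk.injEq] at hpq
      exact Prod.ext hpq.2 hpq.1
  have h3 : ((T ×ˢ T).filter fun p => p.1 = p.2).card ≤ T.card := by
    apply card_le_card_of_injOn (fun p => p.1)
    · intro p hp
      simp only [coe_filter, mem_product, Set.mem_setOf_eq] at hp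
      exact hp.1.1
    · intro p hp q hq hpq
      simp only [coe_filter, mem_product, Set.mem_setOf_eq] at hp hq
      have hpq' : p.1 = q.1 := hpq
      exact Prod.ext hpq' (by rw [← hp.2, ← hq.2, hpq'])
  calc T.card * T.card = (T ×ˢ T).card := (card_product T T).symm
    _ ≤ _ := card_le_card h1
    _ ≤ (((T ×ˢ T).filter fun p => p.1 < p.2) ∪
          ((T ×ˢ T).filter fun p => p.2 < p.1)).card
        + ((T ×ˢ T).filter fun p => p.1 = p.2).card := card_union_le _ _
    _ ≤ ((T ×ˢ T).filter fun p => p.1 < p.2).card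
        + ((T ×ˢ T).filter fun p => p.2 < p.1).card
        + ((T ×ˢ T).filter fun p => p.1 = p.2).card := by
        gcongr
        exact card_union_le _ _
    _ ≤ T.card + 2 * ((T ×ˢ T).filter fun p => p.1 < p.2).card := by omega

/-- Squares of the numbers `tnum` are controlled by the copies. -/
theorem sum_tnum_sq_le (A : Fin n → Fin n → Bool) :
    ∑ rr : Fin n × Fin n, tnum A rr ^ 2
      ≤ ∑ rr : Fin n × Fin n, tnum A rr + 2 * (rowQuad A).card := by
  classical
  have hfib : (rowQuad A).card
      = ∑ rr : Fin n × Fin n, ((rowQuad A).filter fun x => x.1 = rr).card :=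
    card_eq_sum_card_fiberwise (fun x _ => mem_univ x.1)
  rw [hfib, mul_sum, ← sum_add_distrib]
  apply sum_le_sum
  intro rr _
  by_cases hlt : rr.1 < rr.2
  · have h1 : tnum A rr = (colSet A rr.1 rr.2).card := by rw [tnum, if_pos hlt]
    rw [h1, sq]
    refine le_trans (card_mul_card_le_pairs (colSet A rr.1 rr.2)) ?_
    have h2 : (((colSet A rr.1 rr.2) ×ˢ (colSet A rr.1 rr.2)).filter fun p => p.1 < p.2).card
        ≤ ((rowQuad A).filter fun x => x.1 = rr).card := by
      apply card_le_card_of_injOn (fun p => (rr, p))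
      · intro p hp
        simp only [coe_filter, mem_product, Set.mem_setOf_eq, colSet, mem_filter, mem_univ,
          true_and] at hp
        simp only [coe_filter, rowQuad, mem_filter, mem_univ, true_and, Set.mem_setOf_eq,
          and_true]
        exact ⟨hlt, hp.2, hp.1.1.1, hp.1.2.1, hp.1.1.2, hp.1.2.2⟩
      · intro p _ q _ hpq
        simp only [Prod.mk.injEq, true_and] at hpq
        exact hpq
    omega
  · have h1 : tnum A rr = 0 := by rw [tnum, if_neg hlt]
    rw [h1]
    simp

/-- Inversions of a column, in the form used by the sorting lemma. -/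
def invSet (A : Fin n → Fin n → Bool) (c : Fin n) : Finset (Fin n × Fin n) :=
  ((univ.filter fun r => A r c = true) ×ˢ (univ \ univ.filter fun r => A r c = true)).filter
    fun p => id p.1 < id p.2

/-- Double counting: the inversions of all columns are counted by `tnum`. -/
theorem sum_invSet_le (A : Fin n → Fin n → Bool) :
    ∑ c : Fin n, (invSet A c).card ≤ ∑ rr : Fin n × Fin n, tnum A rr := by
  classical
  set W : Finset ((Fin n × Fin n) × Fin n) :=
    univ.filter fun w => w.1.1 < w.1.2 ∧ A w.1.1 w.2 = true ∧ A w.1.2 w.2 = false with hW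
  have h1 : W.card = ∑ c : Fin n, (W.filter fun w => w.2 = c).card :=
    card_eq_sum_card_fiberwise (fun w _ => mem_univ w.2)
  have h2 : W.card = ∑ rr : Fin n × Fin n, (W.filter fun w => w.1 = rr).card :=
    card_eq_sum_card_fiberwise (fun w _ => mem_univ w.1)
  have h3 : ∀ c : Fin n, (invSet A c).card ≤ (W.filter fun w => w.2 = c).card := by
    intro c
    apply card_le_card_of_injOn (fun p => (p, c))
    · intro p hp
      simp only [invSet, coe_filter, mem_product, mem_filter, mem_univ, true_and, mem_sdiff,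
        Set.mem_setOf_eq, id] at hp
      simp only [hW, coe_filter, mem_filter, mem_univ, true_and, Set.mem_setOf_eq, and_true]
      refine ⟨hp.2, hp.1.1, ?_⟩
      simpa using hp.1.2
    · intro p _ q _ hpq
      simp only [Prod.mk.injEq, and_true] at hpq
      exact hpq
  have h4 : ∀ rr : Fin n × Fin n, (W.filter fun w => w.1 = rr).card ≤ tnum A rr := by
    intro rr
    by_cases hlt : rr.1 < rr.2
    · rw [tnum, if_pos hlt]
      apply card_le_card_of_injOn (fun w => w.2)
      · intro w hw
        simp only [hW, coe_filter, mem_filter, mem_univ, true_and, Set.mem_setOf_eq] at hw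
        simp only [colSet, coe_filter, mem_univ, true_and, Set.mem_setOf_eq]
        obtain ⟨⟨-, h5, h6⟩, h7⟩ := hw
        rw [← h7]
        exact ⟨h5, h6⟩
      · intro w hw v hv hwv
        simp only [hW, coe_filter, mem_filter, mem_univ, true_and, Set.mem_setOf_eq] at hw hv
        have hwv' : w.2 = v.2 := hwv
        exact Prod.ext (hw.2.trans hv.2.symm) hwv'
    · rw [tnum, if_neg hlt]
      apply le_of_eq
      rw [card_eq_zero, filter_eq_empty_iff]
      intro w hw hw1
      simp only [hW, mem_filter, mem_univ, true_and] at hw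
      rw [hw1] at hw
      exact hlt hw.1
  calc ∑ c : Fin n, (invSet A c).card ≤ ∑ c : Fin n, (W.filter fun w => w.2 = c).card :=
        sum_le_sum fun c _ => h3 c
    _ = W.card := h1.symm
    _ = ∑ rr : Fin n × Fin n, (W.filter fun w => w.1 = rr).card := h2
    _ ≤ ∑ rr : Fin n × Fin n, tnum A rr := sum_le_sum fun rr _ => h4 rr

/-- The real inequality behind the removal bound. -/
theorem rows_arith (n : ℕ) (ε : ℝ) (hε0 : 0 < ε) (hε1 : ε < 1) (N S D : ℕ) (hN1 : 1 ≤ N)
    (hN : (N : ℝ) < 1 / 4096 * ε ^ 8 * (n : ℝ) ^ (2 * 2))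
    (hD : D * D ≤ n * S) (hS : S * S ≤ n * n * (S + 2 * N)) :
    (2 * D : ℝ) < ε * (n : ℝ) ^ 2 := by
  have hD' : (D : ℝ) * D ≤ n * S := by exact_mod_cast hD
  have hS' : (S : ℝ) * S ≤ n * n * (S + 2 * N) := by exact_mod_cast hS
  have hN1' : (1 : ℝ) ≤ N := by exact_mod_cast hN1
  have hx0 : (0 : ℝ) ≤ n := Nat.cast_nonneg n
  have hs0 : (0 : ℝ) ≤ S := Nat.cast_nonneg S
  have hd0 : (0 : ℝ) ≤ D := Nat.cast_nonneg D
  generalize (n : ℝ) = x at *
  generalize (S : ℝ) = s at *
  generalize (D : ℝ) = d at *
  generalize (N : ℝ) = m at *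
  have hN2 : m < 1 / 4096 * ε ^ 8 * x ^ 4 := by
    have : (2 * 2 : ℕ) = 4 := rfl
    rw [this] at hN
    exact hN
  have hxpos : 0 < x := by
    rcases hx0.eq_or_lt with h | h
    · rw [← h] at hN2
      norm_num at hN2
      linarith
    · exact h
  have hε2 : 0 < ε ^ 2 := by positivity
  have h8 : 8 < ε ^ 2 * x := by
    by_contra hcon
    push Not at hcon
    have h1 : (ε ^ 2 * x) ^ 4 ≤ 8 ^ 4 := pow_le_pow_left₀ (by positivity) hcon 4
    have h2 : (ε ^ 2 * x) ^ 4 = ε ^ 8 * x ^ 4 := by ring
    rw [h2] at h1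
    norm_num at h1
    linarith
  by_contra hcon
  push Not at hcon
  have hεx : 0 ≤ ε * x ^ 2 := by positivity
  have h1 : (ε * x ^ 2) * (ε * x ^ 2) ≤ (2 * d) * (2 * d) :=
    mul_le_mul hcon hcon hεx (by positivity)
  have h2 : ε ^ 2 * x ^ 3 ≤ 4 * s := by
    have h3 : x * (ε ^ 2 * x ^ 3) ≤ x * (4 * s) := by nlinarith
    exact le_of_mul_le_mul_left h3 hxpos
  have hx3 : 0 < x ^ 3 := by positivity
  have hx2 : 0 < x ^ 2 := by positivity
  have hspos : 0 < s := by
    have : 0 < ε ^ 2 * x ^ 3 := by positivity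
    linarith
  -- `s - x ^ 2 ≥ ε ^ 2 * x ^ 3 / 8`
  have h4 : ε ^ 2 * x ^ 3 / 8 ≤ s - x ^ 2 := by
    have h5 : x ^ 2 * 8 < x ^ 2 * (ε ^ 2 * x) := mul_lt_mul_of_pos_left h8 hx2
    nlinarith
  have h6 : s * (s - x ^ 2) ≤ 2 * x ^ 2 * m := by nlinarith
  have h7 : s * (ε ^ 2 * x ^ 3 / 8) ≤ 2 * x ^ 2 * m :=
    le_trans (mul_le_mul_of_nonneg_left h4 hspos.le) h6
  have h9 : s * (ε ^ 2 * x) ≤ 16 * m := by
    have h10 : x ^ 2 * (s * (ε ^ 2 * x)) ≤ x ^ 2 * (16 * m) := by nlinarith
    exact le_of_mul_le_mul_left h10 hx2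
  have h11 : s * (ε ^ 2 * x) < ε ^ 8 * x ^ 4 / 256 := by linarith
  have h12 : ε ^ 2 * x ^ 3 / 4 * (ε ^ 2 * x) ≤ s * (ε ^ 2 * x) :=
    mul_le_mul_of_nonneg_right (by linarith) (by positivity)
  have h13 : ε ^ 2 * x ^ 3 / 4 * (ε ^ 2 * x) < ε ^ 8 * x ^ 4 / 256 := lt_of_le_of_lt h12 h11
  have h14 : ε ^ 4 * x ^ 4 * 64 < ε ^ 4 * x ^ 4 * ε ^ 4 := by nlinarith
  have h15 : 0 < ε ^ 4 * x ^ 4 := by positivity
  have h16 : (64 : ℝ) < ε ^ 4 := lt_of_mul_lt_mul_left h14 h15.le
  have h17 : ε ^ 4 ≤ 1 := pow_le_one₀ hε0.le hε1.le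
  linarith

/-- The removal form for the pattern with constant rows. -/
theorem rows_removal (hn : 1 ≤ n) (ε : ℝ) (hε0 : 0 < ε) (hε1 : ε < 1)
    (A : Fin n → Fin n → Bool)
    (hN : (copyCount ![![true, true], ![false, false]] A : ℝ)
      < 1 / 4096 * ε ^ 8 * (n : ℝ) ^ (2 * 2)) :
    ∃ B : Fin n → Fin n → Bool, IsFree ![![true, true], ![false, false]] B ∧
      (diffCard A B : ℝ) < ε * (n : ℝ) ^ 2 := by
  classical
  by_cases h0 : copyCount ![![true, true], ![false, false]] A = 0
  · refine ⟨A, (isFree_iff_copyCount _ A).mpr h0, ?_⟩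
    have hd : diffCard A A = 0 := by
      rw [diffCard, card_eq_zero, filter_eq_empty_iff]
      intro p _ h
      exact h rfl
    rw [hd]
    have h1 : (1 : ℝ) ≤ n := by exact_mod_cast hn
    simp only [Nat.cast_zero]
    positivity
  · have hN1 : 1 ≤ copyCount ![![true, true], ![false, false]] A :=
      Nat.one_le_iff_ne_zero.mpr h0
    have hsort := fun c : Fin n => Vale.Agent.H10.Removal.sort_lemma (univ : Finset (Fin n))
      (univ.filter fun r => A r c = true) (subset_univ _) (id : Fin n → Fin n)
      Function.injective_id.injOn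
    choose F hFsub hFup d hd1 hd2 hd3 using hsort
    set B : Fin n → Fin n → Bool := fun r c => decide (r ∈ F c) with hB
    have hfree : IsFree ![![true, true], ![false, false]] B := by
      apply isFree_rows_of_sorted
      intro c r r' h hlt
      simp only [hB, decide_eq_true_eq] at h ⊢
      exact hFup c r h r' (mem_univ _) hlt
    refine ⟨B, hfree, ?_⟩
    have hdiff : diffCard A B ≤ 2 * ∑ c, d c := by
      rw [diffCard, card_eq_sum_card_fiberwise (f := fun p : Fin n × Fin n => p.2) (t := univ)
        (fun p _ => mem_univ _), mul_sum]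
      apply sum_le_sum
      intro c _
      have hle : ((univ.filter fun p : Fin n × Fin n => A p.1 p.2 ≠ B p.1 p.2).filter
          fun p => p.2 = c).card
          ≤ (((univ.filter fun r => A r c = true) \ F c) ∪
              (F c \ (univ.filter fun r => A r c = true))).card := by
        apply card_le_card_of_injOn (fun p => p.1)
        · intro p hp
          simp only [coe_filter, mem_filter, mem_univ, true_and, Set.mem_setOf_eq] at hp
          obtain ⟨hne, rfl⟩ := hp
          simp only [coe_union, coe_sdiff, coe_filter, mem_univ, true_and, Set.mem_union,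
            Set.mem_diff, Set.mem_setOf_eq, mem_coe]
          by_cases hF : p.1 ∈ F p.2
          · right
            refine ⟨hF, ?_⟩
            intro hA
            apply hne
            rw [hA, hB]
            simp [hF]
          · left
            refine ⟨?_, hF⟩
            by_contra hA
            apply hne
            rw [Bool.not_eq_true] at hA
            rw [hA, hB]
            simp [hF]
        · intro p hp q hq hpq
          simp only [coe_filter, mem_filter, mem_univ, true_and, Set.mem_setOf_eq] at hp hq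
          exact Prod.ext hpq (hp.2.trans hq.2.symm)
      refine le_trans hle (le_trans (card_union_le _ _) ?_)
      rw [hd1 c, hd2 c]
      omega
    have hDD : (∑ c, d c) * (∑ c, d c) ≤ n * ∑ rr : Fin n × Fin n, tnum A rr := by
      have h1 : (∑ c, d c) ^ 2 ≤ (univ : Finset (Fin n)).card * ∑ c, d c ^ 2 :=
        sq_sum_le_card_mul_sum_sq
      rw [card_univ, Fintype.card_fin] at h1
      have h2 : ∑ c, d c ^ 2 ≤ ∑ c, (invSet A c).card := by
        apply sum_le_sum
        intro c _
        rw [sq]
        exact hd3 c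
      calc (∑ c, d c) * (∑ c, d c) = (∑ c, d c) ^ 2 := (sq _).symm
        _ ≤ n * ∑ c, d c ^ 2 := h1
        _ ≤ n * ∑ c, (invSet A c).card := Nat.mul_le_mul_left _ h2
        _ ≤ n * ∑ rr : Fin n × Fin n, tnum A rr := Nat.mul_le_mul_left _ (sum_invSet_le A)
    have hSS : (∑ rr : Fin n × Fin n, tnum A rr) * (∑ rr : Fin n × Fin n, tnum A rr)
        ≤ n * n * (∑ rr : Fin n × Fin n, tnum A rr
          + 2 * copyCount ![![true, true], ![false, false]] A) := by
      have h1 : (∑ rr : Fin n × Fin n, tnum A rr) ^ 2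
          ≤ (univ : Finset (Fin n × Fin n)).card * ∑ rr : Fin n × Fin n, tnum A rr ^ 2 :=
        sq_sum_le_card_mul_sum_sq
      rw [card_univ, Fintype.card_prod, Fintype.card_fin] at h1
      have h2 := sum_tnum_sq_le A
      have h3 := rowQuad_card_le A
      calc (∑ rr : Fin n × Fin n, tnum A rr) * (∑ rr : Fin n × Fin n, tnum A rr)
          = (∑ rr : Fin n × Fin n, tnum A rr) ^ 2 := (sq _).symm
        _ ≤ n * n * ∑ rr : Fin n × Fin n, tnum A rr ^ 2 := h1
        _ ≤ n * n * (∑ rr : Fin n × Fin n, tnum A rr + 2 * (rowQuad A).card) :=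
            Nat.mul_le_mul_left _ h2
        _ ≤ _ := by
            apply Nat.mul_le_mul_left
            omega
    have hfin := rows_arith n ε hε0 hε1 _ _ _ hN1 hN hDD hSS
    have hcast : (diffCard A B : ℝ) ≤ 2 * ((∑ c, d c : ℕ) : ℝ) := by exact_mod_cast hdiff
    exact lt_of_le_of_lt hcast hfin

/-- Polynomial removal for the `2 × 2` pattern with constant rows `[[1, 1], [0, 0]]`, with
constants `c = 1 / 4096` and `C = 8`. -/
theorem polyRemoval_rows : PolyRemoval ![![true, true], ![false, false]] (1 / 4096) 8 :=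
  polyRemoval_of_removal _ _ _ fun _ hn ε h0 h1 A h => rows_removal hn ε h0 h1 A h

end Vale.Agent.H10.Pattern.Rows
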