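import Vale.Agent.H10.Pattern.Basic

-- This file was written by helper57 (original: Vale/Agent/H57/PatternSymm.lean); it is copied here unchanged
-- (apart from its namespace) so that the hand-ins of helper10 depend on one folder only.

/-!
# Symmetry transfer of the polynomial removal bound

Complementing all entries, transposing, and reversing the order of the rows each map ordered
copies of a pattern to ordered copies of the transformed pattern and preserve the number of
entries in which two matrices differ; hence `PolyRemoval` transfers along each operation.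
-/

namespace Vale.Agent.H10.Pattern.Symm

open Finset Vale.Agent.H10.Pattern

theorem ncard_eq_of_equiv {α β : Type*} (e : α ≃ β) (s : Set α) (t : Set β)
    (h : ∀ a, a ∈ s ↔ e a ∈ t) : s.ncard = t.ncard := by
  have ht : t = e '' s := by
    ext b
    constructor
    · intro hb
      refine ⟨e.symm b, (h _).mpr ?_, by simp⟩
      simpa using hb
    · rintro ⟨a, ha, rfl⟩
      exact (h a).mp ha
  rw [ht, Set.ncard_image_of_injective _ e.injective]

/-- Generic transfer: an involutive operation `s` on matrices (for every size) which matches the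
copy counts of `H'` with those of `H` and preserves the number of differing entries transfers
the polynomial removal bound from `H` to `H'`. -/
theorem polyRemoval_of_symm {k : ℕ} {H H' : Fin k → Fin k → Bool} {c : ℝ} {C : ℕ}
    (s : ∀ n : ℕ, (Fin n → Fin n → Bool) → (Fin n → Fin n → Bool))
    (hinv : ∀ (n : ℕ) (B : Fin n → Fin n → Bool), s n (s n B) = B)
    (hcount : ∀ (n : ℕ) (A : Fin n → Fin n → Bool), copyCount H' A = copyCount H (s n A))
    (hdiff : ∀ (n : ℕ) (A B : Fin n → Fin n → Bool), diffCard (s n A) (s n B) = diffCard A B)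
    (h : PolyRemoval H c C) : PolyRemoval H' c C := by
  intro n hn ε hε0 hε1 A hdist
  have hfree : ∀ B : Fin n → Fin n → Bool, IsFree H' B ↔ IsFree H (s n B) := by
    intro B
    rw [isFree_iff_copyCount, isFree_iff_copyCount, hcount]
  have hd : dist H' A = dist H (s n A) := by
    unfold Vale.Agent.H10.Pattern.dist
    congr 1
    ext x
    constructor
    · rintro ⟨B, hB, rfl⟩
      refine ⟨s n B, (hfree B).mp hB, ?_⟩
      have := hdiff n A B
      unfold diffCard at this
      rw [this]
    · rintro ⟨B, hB, rfl⟩
      refine ⟨s n B, (hfree (s n B)).mpr (by rw [hinv]; exact hB), ?_⟩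
      have := hdiff n A (s n B)
      rw [hinv] at this
      unfold diffCard at this
      rw [this]
  rw [hcount]
  exact h n hn ε hε0 hε1 (s n A) (hd ▸ hdist)

/-- complementing all entries -/
theorem polyRemoval_compl {k : ℕ} {H : Fin k → Fin k → Bool} {c : ℝ} {C : ℕ}
    (h : PolyRemoval H c C) : PolyRemoval (fun i j => !H i j) c C := by
  refine polyRemoval_of_symm (fun n A => fun i j => !A i j) ?_ ?_ ?_ h
  · intro n B
    funext i j
    simp
  · intro n A
    unfold copyCount
    congr 1
    ext p
    simp only [copies, Set.mem_ofPred_eq]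
    constructor
    · rintro ⟨h1, h2, h3⟩
      refine ⟨h1, h2, fun i j => ?_⟩
      rw [h3 i j]; simp
    · rintro ⟨h1, h2, h3⟩
      refine ⟨h1, h2, fun i j => ?_⟩
      rw [← h3 i j]; simp
  · intro n A B
    unfold diffCard
    congr 1
    ext p
    simp

/-- transposing -/
theorem polyRemoval_transpose {k : ℕ} {H : Fin k → Fin k → Bool} {c : ℝ} {C : ℕ}
    (h : PolyRemoval H c C) : PolyRemoval (fun i j => H j i) c C := by
  refine polyRemoval_of_symm (fun n A => fun i j => A j i) ?_ ?_ ?_ h
  · intro n B
    rfl
  · intro n A
    unfold copyCount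
    refine ncard_eq_of_equiv (Equiv.prodComm _ _) _ _ ?_
    intro p
    simp only [copies, Set.mem_ofPred_eq, Equiv.prodComm_apply, Prod.fst_swap, Prod.snd_swap]
    constructor
    · rintro ⟨h1, h2, h3⟩
      exact ⟨h2, h1, fun i j => h3 j i⟩
    · rintro ⟨h1, h2, h3⟩
      exact ⟨h2, h1, fun i j => h3 j i⟩
  · intro n A B
    unfold diffCard
    refine Finset.card_equiv (Equiv.prodComm _ _) ?_
    intro p
    simp

/-- reversing the order of the rows -/
theorem polyRemoval_revRows {k : ℕ} {H : Fin k → Fin k → Bool} {c : ℝ} {C : ℕ}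
    (h : PolyRemoval H c C) : PolyRemoval (fun i j => H (Fin.rev i) j) c C := by
  refine polyRemoval_of_symm (fun n A => fun i j => A (Fin.rev i) j) ?_ ?_ ?_ h
  · intro n B
    funext i j
    simp
  · intro n A
    unfold copyCount
    -- the bijection (f, g) ↦ (rev ∘ f ∘ rev, g)
    let e : ((Fin k → Fin n) × (Fin k → Fin n)) ≃ ((Fin k → Fin n) × (Fin k → Fin n)) :=
      { toFun := fun p => (fun i => Fin.rev (p.1 (Fin.rev i)), p.2)
        invFun := fun p => (fun i => Fin.rev (p.1 (Fin.rev i)), p.2)
        left_inv := by
          intro p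
          ext i <;> simp
        right_inv := by
          intro p
          ext i <;> simp }
    refine ncard_eq_of_equiv e _ _ ?_
    intro p
    have hmono : ∀ f : Fin k → Fin n, StrictMono f →
        StrictMono (fun i => Fin.rev (f (Fin.rev i))) := by
      intro f hf a b hab
      have h1 : Fin.rev b < Fin.rev a := Fin.rev_lt_rev.mpr hab
      have h2 : f (Fin.rev b) < f (Fin.rev a) := hf h1
      exact Fin.rev_lt_rev.mpr h2
    simp only [copies, Set.mem_ofPred_eq]
    constructor
    · rintro ⟨h1, h2, h3⟩
      refine ⟨hmono _ h1, h2, fun i j => ?_⟩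
      show A (Fin.rev (Fin.rev (p.1 (Fin.rev i)))) (p.2 j) = H i j
      rw [Fin.rev_rev, h3 (Fin.rev i) j, Fin.rev_rev]
    · rintro ⟨h1, h2, h3⟩
      refine ⟨?_, h2, fun i j => ?_⟩
      · have := hmono _ h1
        have hf : (fun i => Fin.rev ((e p).1 (Fin.rev i))) = p.1 := by
          funext i
          show Fin.rev (Fin.rev (p.1 (Fin.rev (Fin.rev i)))) = p.1 i
          rw [Fin.rev_rev, Fin.rev_rev]
        rw [hf] at this
        exact this
      · have := h3 (Fin.rev i) j
        have h4 : A (Fin.rev (Fin.rev (p.1 (Fin.rev (Fin.rev i))))) (p.2 j) = H (Fin.rev i) j := this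
        rw [Fin.rev_rev, Fin.rev_rev] at h4
        exact h4
  · intro n A B
    unfold diffCard
    refine Finset.card_equiv (Equiv.prodCongr Fin.revPerm (Equiv.refl _)) ?_
    intro p
    simp

end Vale.Agent.H10.Pattern.Symm
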