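import Vale.Agent.H10.Pattern.Base
import Vale.Agent.H10.Pattern.Symm
import Vale.Agent.H10.Pattern.Rows
import Vale.Agent.H10.Pattern.Ones

/-!
# The polynomial removal bound for every `2 × 2` pattern

The sixteen `2 × 2` patterns are obtained from four base patterns (all ones, constant rows,
identity, `[[1, 1], [1, 0]]`) by complementing, transposing and reversing the row order.
-/

namespace Vale.Agent.H10.Pattern

open Symm Rows Ones

theorem polyRemoval_congr {k : ℕ} {H H' : Fin k → Fin k → Bool} {c : ℝ} {C : ℕ}
    (h : PolyRemoval H c C) (e : ∀ i j, H i j = H' i j) : PolyRemoval H' c C := by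
  have : H = H' := funext fun i => funext fun j => e i j
  rw [← this]; exact h

/-- uniform constants for the four base patterns -/
theorem base_ones : PolyRemoval (fun _ _ : Fin 2 => true) (1 / 10 ^ 13) 10 :=
  polyRemoval_ones.mono (by norm_num) (by norm_num) (by norm_num)

theorem base_rows : PolyRemoval ![![true, true], ![false, false]] (1 / 10 ^ 13) 10 :=
  polyRemoval_rows.mono (by norm_num) (by norm_num) (by norm_num)

theorem base_identity : PolyRemoval ![![true, false], ![false, true]] (1 / 10 ^ 13) 10 :=
  polyRemoval_identity.mono (by norm_num) (by norm_num) (by norm_num)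

theorem base_gamma : PolyRemoval ![![true, true], ![true, false]] (1 / 10 ^ 13) 10 :=
  polyRemoval_gamma

/-- the polynomial removal bound for every `2 × 2` pattern, with uniform constants -/
theorem polyRemoval_two (H : Fin 2 → Fin 2 → Bool) : PolyRemoval H (1 / 10 ^ 13) 10 := by
  have hH : ∀ i j, ![![H 0 0, H 0 1], ![H 1 0, H 1 1]] i j = H i j := by
    intro i j
    fin_cases i <;> fin_cases j <;> rfl
  refine polyRemoval_congr ?_ hH
  generalize H 0 0 = a
  generalize H 0 1 = b
  generalize H 1 0 = c
  generalize H 1 1 = d
  cases a <;> cases b <;> cases c <;> cases d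
  · -- 0 0 / 0 0
    exact polyRemoval_congr (polyRemoval_compl base_ones) (by decide)
  · -- 0 0 / 0 1
    exact polyRemoval_congr (polyRemoval_compl base_gamma) (by decide)
  · -- 0 0 / 1 0
    exact polyRemoval_congr
      (polyRemoval_compl (polyRemoval_transpose (polyRemoval_revRows base_gamma))) (by decide)
  · -- 0 0 / 1 1
    exact polyRemoval_congr (polyRemoval_compl base_rows) (by decide)
  · -- 0 1 / 0 0
    exact polyRemoval_congr (polyRemoval_compl (polyRemoval_revRows base_gamma)) (by decide)
  · -- 0 1 / 0 1
    exact polyRemoval_congr (polyRemoval_compl (polyRemoval_transpose base_rows)) (by decide)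
  · -- 0 1 / 1 0
    exact polyRemoval_congr (polyRemoval_compl base_identity) (by decide)
  · -- 0 1 / 1 1
    exact polyRemoval_congr
      (polyRemoval_revRows (polyRemoval_transpose (polyRemoval_revRows base_gamma))) (by decide)
  · -- 1 0 / 0 0
    exact polyRemoval_congr
      (polyRemoval_compl (polyRemoval_revRows (polyRemoval_transpose (polyRemoval_revRows
        base_gamma)))) (by decide)
  · -- 1 0 / 0 1
    exact base_identity
  · -- 1 0 / 1 0
    exact polyRemoval_congr (polyRemoval_transpose base_rows) (by decide)
  · -- 1 0 / 1 1
    exact polyRemoval_congr (polyRemoval_revRows base_gamma) (by decide)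
  · -- 1 1 / 0 0
    exact base_rows
  · -- 1 1 / 0 1
    exact polyRemoval_congr (polyRemoval_transpose (polyRemoval_revRows base_gamma)) (by decide)
  · -- 1 1 / 1 0
    exact base_gamma
  · -- 1 1 / 1 1
    exact polyRemoval_congr base_ones (by decide)

end Vale.Agent.H10.Pattern
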