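import Vale.Agent.H10.Pattern.TwoByTwo
import Vale.Agent.H10.Removal.GammaMain

/-!
# The polynomial removal bound for the patterns `[[1, 0], [0, 1]]` and `[[1, 1], [1, 0]]`
-/

namespace Vale.Agent.H10.Pattern

open Finset Vale.Agent.H10.Removal

variable {n : ℕ}

theorem quads_identity (A : Fin n → Fin n → Bool) :
    quads ![![true, false], ![false, true]] A =
      univ.filter fun x => IsCop A x.1.1 x.1.2 x.2.1 x.2.2 := by
  ext x
  rw [quads, mem_filter, mem_filter]
  simp [IsCop]

theorem quads_gamma (A : Fin n → Fin n → Bool) :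
    quads ![![true, true], ![true, false]] A =
      univ.filter fun x => IsCopG A x.1.1 x.1.2 x.2.1 x.2.2 := by
  ext x
  rw [quads, mem_filter, mem_filter]
  simp [IsCopG]

theorem copNum_eq (A : Fin n → Fin n → Bool) :
    copNum A = copyCount ![![true, false], ![false, true]] A := by
  classical
  rw [copyCount_two, quads_identity, copNum, card_filter, Fintype.sum_prod_type,
    Fintype.sum_prod_type]
  apply sum_congr rfl
  intro k1 _
  apply sum_congr rfl
  intro k2 _
  rw [pairCop, card_filter]

theorem copNumG_eq (A : Fin n → Fin n → Bool) :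
    copNumG A = copyCount ![![true, true], ![true, false]] A := by
  classical
  rw [copyCount_two, quads_gamma, copNumG, card_filter, Fintype.sum_prod_type,
    Fintype.sum_prod_type]
  apply sum_congr rfl
  intro k1 _
  apply sum_congr rfl
  intro k2 _
  rw [pairCopG, card_filter]

theorem isFree_identity (B : Fin n → Fin n → Bool) (hB : Free B) :
    IsFree ![![true, false], ![false, true]] B := by
  rw [isFree_two_iff]
  rintro i j c c' hij hcc ⟨h1, h2, h3, h4⟩
  exact hB i j c c' ⟨hij, hcc, h1, h2, h3, h4⟩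

theorem isFree_gamma (B : Fin n → Fin n → Bool) (hB : FreeG B) :
    IsFree ![![true, true], ![true, false]] B := by
  rw [isFree_two_iff]
  rintro i j c c' hij hcc ⟨h1, h2, h3, h4⟩
  exact hB i j c c' ⟨hij, hcc, h1, h2, h3, h4⟩

/-- the polynomial removal bound for the identity pattern `[[1, 0], [0, 1]]` -/
theorem polyRemoval_identity :
    PolyRemoval ![![true, false], ![false, true]] (1 / 10 ^ 12) 10 := by
  apply polyRemoval_of_removal
  intro n hn ε hε0 hε1 A hN
  have hN' : (copNum A : ℝ) < 1 / 10 ^ 12 * ε ^ 10 * (n : ℝ) ^ 4 := by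
    rw [copNum_eq]
    exact hN
  obtain ⟨B, hB, hd⟩ := removal_ident hn hε0 hε1 A hN'
  exact ⟨B, isFree_identity B hB, hd⟩

/-- the polynomial removal bound for the pattern `[[1, 1], [1, 0]]` -/
theorem polyRemoval_gamma :
    PolyRemoval ![![true, true], ![true, false]] (1 / 10 ^ 13) 10 := by
  apply polyRemoval_of_removal
  intro n hn ε hε0 hε1 A hN
  have hN' : (copNumG A : ℝ) < 1 / 10 ^ 13 * ε ^ 10 * (n : ℝ) ^ 4 := by
    rw [copNumG_eq]
    exact hN
  obtain ⟨B, hB, hd⟩ := removal_gamma hn hε0 hε1 A hN'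
  exact ⟨B, isFree_gamma B hB, hd⟩

end Vale.Agent.H10.Pattern
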