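import Vale.Agent.H10.Pattern.Defs

/-!
# Basic facts on the distance and on the polynomial removal bound
-/

namespace Vale.Agent.H10.Pattern

open Finset

variable {k n : ℕ}

/-- the number of entries where two matrices differ -/
def diffCard (A B : Fin n → Fin n → Bool) : ℕ :=
  (univ.filter fun p : Fin n × Fin n => A p.1 p.2 ≠ B p.1 p.2).card

theorem dist_le_of_isFree (H : Fin k → Fin k → Bool) (A B : Fin n → Fin n → Bool)
    (hB : IsFree H B) : dist H A ≤ (diffCard A B : ℝ) / (n : ℝ) ^ 2 := by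
  have hbdd : BddBelow {x : ℝ | ∃ B : Fin n → Fin n → Bool, IsFree H B ∧
      x = ((univ.filter fun p : Fin n × Fin n => A p.1 p.2 ≠ B p.1 p.2).card : ℝ) /
        (n : ℝ) ^ 2} := by
    refine ⟨0, ?_⟩
    rintro x ⟨B', _, rfl⟩
    positivity
  exact csInf_le hbdd ⟨B, hB, rfl⟩

/-- a free matrix that differs from `A` in fewer than `ε n²` entries shows `dist_H(A) < ε` -/
theorem dist_lt_of_isFree (H : Fin k → Fin k → Bool) (A B : Fin n → Fin n → Bool)
    (hn : 1 ≤ n) {ε : ℝ} (hB : IsFree H B) (hd : (diffCard A B : ℝ) < ε * (n : ℝ) ^ 2) :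
    dist H A < ε := by
  have hn0 : (0 : ℝ) < (n : ℝ) ^ 2 := by
    have : (1 : ℝ) ≤ n := by exact_mod_cast hn
    positivity
  refine lt_of_le_of_lt (dist_le_of_isFree H A B hB) ?_
  rw [div_lt_iff₀ hn0]
  exact hd

theorem dist_nonneg (H : Fin k → Fin k → Bool) (A : Fin n → Fin n → Bool) : 0 ≤ dist H A := by
  apply Real.sInf_nonneg
  rintro x ⟨B, _, rfl⟩
  positivity

theorem dist_eq_zero_of_isFree (H : Fin k → Fin k → Bool) (A : Fin n → Fin n → Bool)
    (hA : IsFree H A) : dist H A = 0 := by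
  apply le_antisymm _ (dist_nonneg H A)
  have h := dist_le_of_isFree H A A hA
  have h0 : diffCard A A = 0 := by
    rw [diffCard, card_eq_zero, filter_eq_empty_iff]
    intro p _ h
    exact h rfl
  rw [h0] at h
  simpa using h

theorem isFree_iff_copyCount (H : Fin k → Fin k → Bool) (A : Fin n → Fin n → Bool) :
    IsFree H A ↔ copyCount H A = 0 := by
  rw [IsFree, copyCount, Set.ncard_eq_zero (Set.toFinite _)]

/-- a matrix at positive distance has at least one copy -/
theorem one_le_copyCount_of_dist_pos (H : Fin k → Fin k → Bool) (A : Fin n → Fin n → Bool)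
    (h : 0 < dist H A) : 1 ≤ copyCount H A := by
  by_contra hcon
  have h0 : copyCount H A = 0 := by omega
  have := dist_eq_zero_of_isFree H A ((isFree_iff_copyCount H A).mpr h0)
  linarith

/-- the removal form: few copies imply a nearby free matrix -/
theorem polyRemoval_of_removal (H : Fin k → Fin k → Bool) (c : ℝ) (C : ℕ)
    (h : ∀ n : ℕ, 1 ≤ n → ∀ ε : ℝ, 0 < ε → ε < 1 → ∀ A : Fin n → Fin n → Bool,
      (copyCount H A : ℝ) < c * ε ^ C * (n : ℝ) ^ (2 * k) →
      ∃ B : Fin n → Fin n → Bool, IsFree H B ∧ (diffCard A B : ℝ) < ε * (n : ℝ) ^ 2) :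
    PolyRemoval H c C := by
  intro n hn ε hε0 hε1 A hdist
  by_contra hcon
  obtain ⟨B, hB, hd⟩ := h n hn ε hε0 hε1 A (not_le.mp hcon)
  have := dist_lt_of_isFree H A B hn hB hd
  linarith

/-- weakening the constants -/
theorem PolyRemoval.mono {H : Fin k → Fin k → Bool} {c c' : ℝ} {C C' : ℕ}
    (h : PolyRemoval H c C) (hc : c' ≤ c) (hc0 : 0 ≤ c) (hC : C ≤ C') : PolyRemoval H c' C' := by
  intro n hn ε hε0 hε1 A hdist
  refine le_trans ?_ (h n hn ε hε0 hε1 A hdist)
  have h1 : ε ^ C' ≤ ε ^ C := pow_le_pow_of_le_one hε0.le hε1.le hC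
  have h2 : (0 : ℝ) ≤ (n : ℝ) ^ (2 * k) := by positivity
  have h3 : (0 : ℝ) ≤ ε ^ C' := by positivity
  have h4 : c' * ε ^ C' ≤ c * ε ^ C := by
    calc c' * ε ^ C' ≤ c * ε ^ C' := mul_le_mul_of_nonneg_right hc h3
      _ ≤ c * ε ^ C := mul_le_mul_of_nonneg_left h1 hc0
  exact mul_le_mul_of_nonneg_right h4 h2

end Vale.Agent.H10.Pattern
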