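import Vale.Agent.H10.Pattern.BlockCount

/-!
# Injective homomorphisms of the blow-up give copies of the block pattern
-/

namespace Vale.Agent.H10.Pattern

open Finset

variable {n : ℕ}

theorem comp_perm_cancel {a : ℕ} {x x' : Fin a → Fin n} (σ : Equiv.Perm (Fin a))
    (h : x ∘ σ = x' ∘ σ) : x = x' := by
  funext i
  have := congrFun h (σ.symm i)
  simpa using this

/-- the homomorphisms with injective components are at most `(K!)²` times the copies -/
theorem card_inj_le {K s t : ℕ} (hs0 : 0 < s) (hsK : s < K) (ht0 : 0 < t) (htK : t < K)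
    (H : Fin 2 → Fin 2 → Bool) (A : Fin n → Fin n → Bool) :
    (univ.filter fun w : (((Fin s → Fin n) × (Fin (K - s) → Fin n)) × (Fin t → Fin n)) ×
        (Fin (K - t) → Fin n) =>
      (∀ i j l m, ((w.1.1.1 i, w.1.1.2 j), (w.1.2 l, w.2 m)) ∈ quads H A) ∧
      (Function.Injective w.1.1.1 ∧ Function.Injective w.1.1.2 ∧
        Function.Injective w.1.2 ∧ Function.Injective w.2)).card ≤
      K.factorial * K.factorial * copyCount (blockPattern K s t H) A := by
  classical
  set C : Finset ((Fin K → Fin n) × (Fin K → Fin n)) :=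
    (Set.toFinite (copies (blockPattern K s t H) A)).toFinset with hC
  have hCcard : C.card = copyCount (blockPattern K s t H) A := by
    rw [copyCount, Set.ncard_eq_toFinset_card _ (Set.toFinite _)]
  set Ψ : (((Fin s → Fin n) × (Fin (K - s) → Fin n)) × (Fin t → Fin n)) ×
        (Fin (K - t) → Fin n) →
      ((Equiv.Perm (Fin s) × Equiv.Perm (Fin (K - s))) ×
        (Equiv.Perm (Fin t) × Equiv.Perm (Fin (K - t)))) ×
        ((Fin K → Fin n) × (Fin K → Fin n)) :=
    fun w => (((Tuple.sort w.1.1.1, Tuple.sort w.1.1.2), (Tuple.sort w.1.2, Tuple.sort w.2)),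
      (glue K s (w.1.1.1 ∘ Tuple.sort w.1.1.1) (w.1.1.2 ∘ Tuple.sort w.1.1.2),
       glue K t (w.1.2 ∘ Tuple.sort w.1.2) (w.2 ∘ Tuple.sort w.2))) with hΨ
  have hmaps : ∀ w ∈ (univ.filter fun w : (((Fin s → Fin n) × (Fin (K - s) → Fin n)) ×
        (Fin t → Fin n)) × (Fin (K - t) → Fin n) =>
      (∀ i j l m, ((w.1.1.1 i, w.1.1.2 j), (w.1.2 l, w.2 m)) ∈ quads H A) ∧
      (Function.Injective w.1.1.1 ∧ Function.Injective w.1.1.2 ∧
        Function.Injective w.1.2 ∧ Function.Injective w.2)),
      Ψ w ∈ (univ : Finset ((Equiv.Perm (Fin s) × Equiv.Perm (Fin (K - s))) ×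
        (Equiv.Perm (Fin t) × Equiv.Perm (Fin (K - t))))) ×ˢ C := by
    intro w hw
    rw [mem_filter] at hw
    obtain ⟨_, hhom, h1, h2, h3, h4⟩ := hw
    rw [mem_product]
    refine ⟨mem_univ _, ?_⟩
    rw [hC, Set.Finite.mem_toFinset]
    apply glue_mem_copies hs0 hsK ht0 htK
    · exact (Tuple.monotone_sort w.1.1.1).strictMono_of_injective
        (h1.comp (Tuple.sort w.1.1.1).injective)
    · exact (Tuple.monotone_sort w.1.1.2).strictMono_of_injective
        (h2.comp (Tuple.sort w.1.1.2).injective)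
    · exact (Tuple.monotone_sort w.1.2).strictMono_of_injective
        (h3.comp (Tuple.sort w.1.2).injective)
    · exact (Tuple.monotone_sort w.2).strictMono_of_injective
        (h4.comp (Tuple.sort w.2).injective)
    · intro i j l m
      exact hhom _ _ _ _
  have hinj : Set.InjOn Ψ ((univ.filter fun w : (((Fin s → Fin n) × (Fin (K - s) → Fin n)) ×
        (Fin t → Fin n)) × (Fin (K - t) → Fin n) =>
      (∀ i j l m, ((w.1.1.1 i, w.1.1.2 j), (w.1.2 l, w.2 m)) ∈ quads H A) ∧
      (Function.Injective w.1.1.1 ∧ Function.Injective w.1.1.2 ∧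
        Function.Injective w.1.2 ∧ Function.Injective w.2)) : Set _) := by
    intro w _ w' _ h
    simp only [hΨ, Prod.mk.injEq] at h
    obtain ⟨⟨⟨e1, e2⟩, e3, e4⟩, g1, g2⟩ := h
    obtain ⟨a1, a2⟩ := glue_eq hsK.le g1
    obtain ⟨a3, a4⟩ := glue_eq htK.le g2
    rw [← e1] at a1
    rw [← e2] at a2
    rw [← e3] at a3
    rw [← e4] at a4
    have b1 := comp_perm_cancel _ a1
    have b2 := comp_perm_cancel _ a2
    have b3 := comp_perm_cancel _ a3
    have b4 := comp_perm_cancel _ a4
    exact Prod.ext (Prod.ext (Prod.ext b1 b2) b3) b4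
  have hcard := card_le_card_of_injOn Ψ hmaps hinj
  rw [card_product, card_univ, Fintype.card_prod, Fintype.card_prod, Fintype.card_prod,
    Fintype.card_perm, Fintype.card_perm, Fintype.card_perm, Fintype.card_perm,
    Fintype.card_fin, Fintype.card_fin, Fintype.card_fin, Fintype.card_fin, hCcard] at hcard
  refine le_trans hcard ?_
  have f1 : s.factorial * (K - s).factorial ≤ K.factorial :=
    Nat.le_of_dvd (Nat.factorial_pos K) (Nat.factorial_mul_factorial_dvd_factorial hsK.le)
  have f2 : t.factorial * (K - t).factorial ≤ K.factorial :=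
    Nat.le_of_dvd (Nat.factorial_pos K) (Nat.factorial_mul_factorial_dvd_factorial htK.le)
  apply Nat.mul_le_mul_right
  exact Nat.mul_le_mul f1 f2

/-- all homomorphisms: at most `2 K² n^(2K-1) + (K!)² N` -/
theorem card_hom_le {K s t : ℕ} (hs0 : 0 < s) (hsK : s < K) (ht0 : 0 < t) (htK : t < K)
    (H : Fin 2 → Fin 2 → Bool) (A : Fin n → Fin n → Bool) :
    (univ.filter fun w : (((Fin s → Fin n) × (Fin (K - s) → Fin n)) × (Fin t → Fin n)) ×
        (Fin (K - t) → Fin n) =>
      ∀ i j l m, ((w.1.1.1 i, w.1.1.2 j), (w.1.2 l, w.2 m)) ∈ quads H A).card ≤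
      2 * K * K * n ^ (2 * K - 1) +
        K.factorial * K.factorial * copyCount (blockPattern K s t H) A := by
  classical
  have hsub : (univ.filter fun w : (((Fin s → Fin n) × (Fin (K - s) → Fin n)) ×
        (Fin t → Fin n)) × (Fin (K - t) → Fin n) =>
      ∀ i j l m, ((w.1.1.1 i, w.1.1.2 j), (w.1.2 l, w.2 m)) ∈ quads H A) ⊆
      (univ.filter fun w : (((Fin s → Fin n) × (Fin (K - s) → Fin n)) × (Fin t → Fin n)) ×
        (Fin (K - t) → Fin n) =>
        ¬ (Function.Injective w.1.1.1 ∧ Function.Injective w.1.1.2 ∧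
          Function.Injective w.1.2 ∧ Function.Injective w.2)) ∪
      (univ.filter fun w : (((Fin s → Fin n) × (Fin (K - s) → Fin n)) × (Fin t → Fin n)) ×
        (Fin (K - t) → Fin n) =>
        (∀ i j l m, ((w.1.1.1 i, w.1.1.2 j), (w.1.2 l, w.2 m)) ∈ quads H A) ∧
        (Function.Injective w.1.1.1 ∧ Function.Injective w.1.1.2 ∧
          Function.Injective w.1.2 ∧ Function.Injective w.2)) := by
    intro w hw
    rw [mem_filter] at hw
    rw [mem_union, mem_filter, mem_filter]
    by_cases hinj : Function.Injective w.1.1.1 ∧ Function.Injective w.1.1.2 ∧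
        Function.Injective w.1.2 ∧ Function.Injective w.2
    · exact Or.inr ⟨mem_univ _, hw.2, hinj⟩
    · exact Or.inl ⟨mem_univ _, hinj⟩
  refine le_trans (card_le_card hsub) (le_trans (card_union_le _ _) ?_)
  exact Nat.add_le_add (card_nonInj_le hs0 hsK ht0 htK) (card_inj_le hs0 hsK ht0 htK H A)

end Vale.Agent.H10.Pattern
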