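import Mathlib

/-!
# Supersaturation for blow-ups: counting homomorphisms

If a set `Q` of quadruples `((x, y), (u, v))` in `Fin n` has at least `γ n⁴` elements, then the
number of tuples `(xs, ys, us, vs)` of lengths `a₁, a₂, b₁, b₂` all of whose quadruples
`((xs i, ys j), (us l, vs m))` lie in `Q` is at least `γ^(a₁ a₂ b₁ b₂) n^(a₁ + a₂ + b₁ + b₂)`.
-/

namespace Vale.Agent.H10.Pattern

open Finset

/-- one blow-up step: the power-mean inequality -/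
theorem blowup_step {X Z : Type*} [Fintype X] [Fintype Z] [DecidableEq X]
    (f : X → Z → ℝ) (hf : ∀ x z, 0 ≤ f x z) (a : ℕ) (ha : 1 ≤ a) :
    (∑ x, ∑ z, f x z) ^ a ≤
      (Fintype.card Z : ℝ) ^ (a - 1) * ∑ z, ∑ xs : Fin a → X, ∏ i, f (xs i) z := by
  obtain ⟨m, rfl⟩ : ∃ m, a = m + 1 := ⟨a - 1, by omega⟩
  rw [sum_comm]
  have h := pow_sum_le_card_mul_sum_pow (s := (univ : Finset Z)) (f := fun z => ∑ x, f x z)
    (fun z _ => sum_nonneg fun x _ => hf x z) m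
  rw [card_univ] at h
  refine le_trans h ?_
  rw [Nat.add_sub_cancel]
  apply le_of_eq
  congr 1
  apply sum_congr rfl
  intro z _
  rw [sum_pow', Fintype.piFinset_univ]

theorem step_arith {n : ℝ} (hn : 0 < n) (a e : ℕ) (ha : 1 ≤ a) {γ T T' : ℝ} (hγ : 0 ≤ γ)
    (h0 : γ * n ^ (e + 1) ≤ T) (h1 : T ^ a ≤ (n ^ e) ^ (a - 1) * T') :
    γ ^ a * n ^ (e + a) ≤ T' := by
  have h2 : (γ * n ^ (e + 1)) ^ a ≤ T ^ a :=
    pow_le_pow_left₀ (by positivity) h0 a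
  have h3 : (γ * n ^ (e + 1)) ^ a = (n ^ e) ^ (a - 1) * (γ ^ a * n ^ (e + a)) := by
    rw [mul_pow, ← pow_mul, ← pow_mul]
    have : (e + 1) * a = e * (a - 1) + (e + a) := by
      obtain ⟨m, rfl⟩ : ∃ m, a = m + 1 := ⟨a - 1, by omega⟩
      rw [Nat.add_sub_cancel]; ring
    rw [this, pow_add]; ring
  have h4 : (n ^ e) ^ (a - 1) * (γ ^ a * n ^ (e + a)) ≤ (n ^ e) ^ (a - 1) * T' := by
    rw [← h3]; exact le_trans h2 h1
  exact le_of_mul_le_mul_left h4 (by positivity)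

end Vale.Agent.H10.Pattern

namespace Vale.Agent.H10.Pattern

open Finset

/-- **Supersaturation for blow-ups.**  A set `Q` of at least `γ n⁴` quadruples contains at
least `γ^(a₁ a₂ b₁ b₂) n^(a₁ + a₂ + b₁ + b₂)` homomorphic images of the complete four-partite
blow-up with parts of sizes `a₁, a₂, b₁, b₂`. -/
theorem hom_count_ge {n : ℕ} (hn : 1 ≤ n) (a1 a2 b1 b2 : ℕ) (ha1 : 1 ≤ a1) (ha2 : 1 ≤ a2)
    (hb1 : 1 ≤ b1) (hb2 : 1 ≤ b2) (Q : Finset ((Fin n × Fin n) × (Fin n × Fin n)))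
    {γ : ℝ} (hγ : 0 ≤ γ) (hQ : γ * (n : ℝ) ^ 4 ≤ (Q.card : ℝ)) :
    γ ^ (a1 * a2 * b1 * b2) * (n : ℝ) ^ (a1 + a2 + b1 + b2) ≤
      ((univ.filter fun w : (((Fin a1 → Fin n) × (Fin a2 → Fin n)) × (Fin b1 → Fin n)) ×
          (Fin b2 → Fin n) =>
        ∀ i j l m, ((w.1.1.1 i, w.1.1.2 j), (w.1.2 l, w.2 m)) ∈ Q).card : ℝ) := by
  classical
  set q : Fin n → Fin n → Fin n → Fin n → ℝ :=
    fun x y u v => if ((x, y), (u, v)) ∈ Q then 1 else 0 with hq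
  have hq0 : ∀ x y u v, 0 ≤ q x y u v := by
    intro x y u v
    simp only [hq]
    split_ifs <;> norm_num
  have hnR : (0 : ℝ) < n := by exact_mod_cast hn
  -- the count of `Q`
  have e0 : ∑ x, ∑ z : Fin n × (Fin n × Fin n), q x z.1 z.2.1 z.2.2 = (Q.card : ℝ) := by
    have h1 : ∑ x, ∑ z : Fin n × (Fin n × Fin n), q x z.1 z.2.1 z.2.2 =
        ∑ p : (Fin n × Fin n) × (Fin n × Fin n), (if p ∈ Q then (1 : ℝ) else 0) := by
      simp only [Fintype.sum_prod_type, hq]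
    rw [h1, sum_boole, filter_mem_eq_inter, univ_inter]
  -- step 1
  have s1 := blowup_step (fun (x : Fin n) (z : Fin n × (Fin n × Fin n)) => q x z.1 z.2.1 z.2.2)
    (fun x z => hq0 _ _ _ _) a1 ha1
  have c1 : (Fintype.card (Fin n × (Fin n × Fin n)) : ℝ) = (n : ℝ) ^ 3 := by
    simp only [Fintype.card_prod, Fintype.card_fin, Nat.cast_mul]; ring
  rw [c1] at s1
  have g1 := step_arith hnR a1 3 ha1 hγ (by rw [e0]; exact hQ) s1
  -- step 2
  have e1 : ∑ z : Fin n × (Fin n × Fin n), ∑ xs : Fin a1 → Fin n, ∏ i, q (xs i) z.1 z.2.1 z.2.2 =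
      ∑ y, ∑ z : (Fin n × Fin n) × (Fin a1 → Fin n), ∏ i, q (z.2 i) y z.1.1 z.1.2 := by
    simp only [Fintype.sum_prod_type]
  rw [e1] at g1
  have s2 := blowup_step (fun (y : Fin n) (z : (Fin n × Fin n) × (Fin a1 → Fin n)) =>
    ∏ i, q (z.2 i) y z.1.1 z.1.2) (fun y z => prod_nonneg fun i _ => hq0 _ _ _ _) a2 ha2
  have c2 : (Fintype.card ((Fin n × Fin n) × (Fin a1 → Fin n)) : ℝ) = (n : ℝ) ^ (2 + a1) := by
    simp only [Fintype.card_prod, Fintype.card_fin, Fintype.card_fun, Nat.cast_mul, Nat.cast_pow]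
    ring
  rw [c2] at s2
  have g2 := step_arith hnR a2 (2 + a1) ha2 (pow_nonneg hγ a1)
    (by rw [show 2 + a1 + 1 = 3 + a1 by ring]; exact g1) s2
  -- step 3
  have e2 : ∑ z : (Fin n × Fin n) × (Fin a1 → Fin n), ∑ ys : Fin a2 → Fin n,
        ∏ j, ∏ i, q (z.2 i) (ys j) z.1.1 z.1.2 =
      ∑ u, ∑ z : Fin n × ((Fin a1 → Fin n) × (Fin a2 → Fin n)),
        ∏ j, ∏ i, q (z.2.1 i) (z.2.2 j) u z.1 := by
    simp only [Fintype.sum_prod_type]
  rw [e2] at g2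
  have s3 := blowup_step (fun (u : Fin n) (z : Fin n × ((Fin a1 → Fin n) × (Fin a2 → Fin n))) =>
    ∏ j, ∏ i, q (z.2.1 i) (z.2.2 j) u z.1)
    (fun u z => prod_nonneg fun j _ => prod_nonneg fun i _ => hq0 _ _ _ _) b1 hb1
  have c3 : (Fintype.card (Fin n × ((Fin a1 → Fin n) × (Fin a2 → Fin n))) : ℝ) =
      (n : ℝ) ^ (1 + a1 + a2) := by
    simp only [Fintype.card_prod, Fintype.card_fin, Fintype.card_fun, Nat.cast_mul, Nat.cast_pow]
    ring
  rw [c3] at s3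
  have g3 := step_arith hnR b1 (1 + a1 + a2) hb1 (pow_nonneg (pow_nonneg hγ a1) a2)
    (by rw [show 1 + a1 + a2 + 1 = 2 + a1 + a2 by ring]; exact g2) s3
  -- step 4
  have e3 : ∑ z : Fin n × ((Fin a1 → Fin n) × (Fin a2 → Fin n)), ∑ us : Fin b1 → Fin n,
        ∏ l, ∏ j, ∏ i, q (z.2.1 i) (z.2.2 j) (us l) z.1 =
      ∑ v, ∑ z : ((Fin a1 → Fin n) × (Fin a2 → Fin n)) × (Fin b1 → Fin n),
        ∏ l, ∏ j, ∏ i, q (z.1.1 i) (z.1.2 j) (z.2 l) v := by
    simp only [Fintype.sum_prod_type]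
  rw [e3] at g3
  have s4 := blowup_step
    (fun (v : Fin n) (z : ((Fin a1 → Fin n) × (Fin a2 → Fin n)) × (Fin b1 → Fin n)) =>
      ∏ l, ∏ j, ∏ i, q (z.1.1 i) (z.1.2 j) (z.2 l) v)
    (fun v z => prod_nonneg fun l _ => prod_nonneg fun j _ => prod_nonneg fun i _ => hq0 _ _ _ _)
    b2 hb2
  have c4 : (Fintype.card (((Fin a1 → Fin n) × (Fin a2 → Fin n)) × (Fin b1 → Fin n)) : ℝ) =
      (n : ℝ) ^ (a1 + a2 + b1) := by
    simp only [Fintype.card_prod, Fintype.card_fin, Fintype.card_fun, Nat.cast_mul, Nat.cast_pow]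
    ring
  rw [c4] at s4
  have g4 := step_arith hnR b2 (a1 + a2 + b1) hb2
    (pow_nonneg (pow_nonneg (pow_nonneg hγ a1) a2) b1)
    (by rw [show a1 + a2 + b1 + 1 = 1 + a1 + a2 + b1 by ring]; exact g3) s4
  -- the last sum is the number of homomorphisms
  have e4 : ∑ z : ((Fin a1 → Fin n) × (Fin a2 → Fin n)) × (Fin b1 → Fin n),
        ∑ vs : Fin b2 → Fin n, ∏ m, ∏ l, ∏ j, ∏ i, q (z.1.1 i) (z.1.2 j) (z.2 l) (vs m) =
      ((univ.filter fun w : (((Fin a1 → Fin n) × (Fin a2 → Fin n)) × (Fin b1 → Fin n)) ×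
          (Fin b2 → Fin n) =>
        ∀ i j l m, ((w.1.1.1 i, w.1.1.2 j), (w.1.2 l, w.2 m)) ∈ Q).card : ℝ) := by
    rw [← Fintype.sum_prod_type
      (f := fun w : (((Fin a1 → Fin n) × (Fin a2 → Fin n)) × (Fin b1 → Fin n)) ×
          (Fin b2 → Fin n) => ∏ m, ∏ l, ∏ j, ∏ i, q (w.1.1.1 i) (w.1.1.2 j) (w.1.2 l) (w.2 m))]
    have h1 : ∀ w : (((Fin a1 → Fin n) × (Fin a2 → Fin n)) × (Fin b1 → Fin n)) ×
          (Fin b2 → Fin n),
        ∏ m, ∏ l, ∏ j, ∏ i, q (w.1.1.1 i) (w.1.1.2 j) (w.1.2 l) (w.2 m) =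
        if (∀ i j l m, ((w.1.1.1 i, w.1.1.2 j), (w.1.2 l, w.2 m)) ∈ Q) then (1 : ℝ) else 0 := by
      intro w
      by_cases h : ∀ i j l m, ((w.1.1.1 i, w.1.1.2 j), (w.1.2 l, w.2 m)) ∈ Q
      · rw [if_pos h]
        apply prod_eq_one
        intro m _
        apply prod_eq_one
        intro l _
        apply prod_eq_one
        intro j _
        apply prod_eq_one
        intro i _
        simp only [hq]
        rw [if_pos (h i j l m)]
      · rw [if_neg h]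
        have h' : ∃ i j l m, ((w.1.1.1 i, w.1.1.2 j), (w.1.2 l, w.2 m)) ∉ Q := by
          by_contra hcon
          apply h
          intro i j l m
          by_contra hc
          exact hcon ⟨i, j, l, m, hc⟩
        obtain ⟨i, j, l, m, hP⟩ := h'
        apply prod_eq_zero (mem_univ m)
        apply prod_eq_zero (mem_univ l)
        apply prod_eq_zero (mem_univ j)
        apply prod_eq_zero (mem_univ i)
        simp only [hq]
        rw [if_neg hP]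
    simp_rw [h1]
    rw [sum_boole]
  rw [e4] at g4
  have e5 : (((γ ^ a1) ^ a2) ^ b1) ^ b2 = γ ^ (a1 * a2 * b1 * b2) := by
    rw [← pow_mul, ← pow_mul, ← pow_mul]
    congr 1
    ring
  rw [e5] at g4
  exact g4

end Vale.Agent.H10.Pattern
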