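import Vale.Agent.H10.Pattern.All
import Vale.Agent.H10.Pattern.BlowSum
import Vale.Agent.H10.Pattern.BlockInj

/-!
# The polynomial removal bound for patterns with a `2 × 2` block structure

A `K × K` pattern with a `2 × 2` block structure is a blow-up of a `2 × 2` pattern `H`.  A
matrix far from free of the block pattern is far from `H`-free, hence contains many copies of
`H`, and these supersaturate to many copies of the block pattern.
-/

namespace Vale.Agent.H10.Pattern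

open Finset

variable {n : ℕ}

/-- an `H`-free matrix is free of every block pattern over `H` -/
theorem isFree_block {K s t : ℕ} (hs0 : 0 < s) (hsK : s < K) (ht0 : 0 < t) (htK : t < K)
    (H : Fin 2 → Fin 2 → Bool) (B : Fin n → Fin n → Bool) (hB : IsFree H B) :
    IsFree (blockPattern K s t H) B := by
  rw [IsFree, Set.eq_empty_iff_forall_notMem]
  rintro p ⟨h1, h2, h3⟩
  have hK : 0 < K := by omega
  have hlt : (⟨0, hK⟩ : Fin K) < ⟨K - 1, by omega⟩ := Fin.mk_lt_mk.mpr (by omega)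
  apply (isFree_two_iff H B).mp hB (p.1 ⟨0, hK⟩) (p.1 ⟨K - 1, by omega⟩) (p.2 ⟨0, hK⟩)
    (p.2 ⟨K - 1, by omega⟩) (h1 hlt) (h2 hlt)
  have hs' : ¬ (K - 1 < s) := by omega
  have ht' : ¬ (K - 1 < t) := by omega
  refine ⟨?_, ?_, ?_, ?_⟩
  · rw [h3]; simp [blockPattern, hs0, ht0]
  · rw [h3]; simp [blockPattern, hs0, ht']
  · rw [h3]; simp [blockPattern, hs', ht0]
  · rw [h3]; simp [blockPattern, hs', ht']

theorem exists_isFree_two (H : Fin 2 → Fin 2 → Bool) :
    ∃ B : Fin n → Fin n → Bool, IsFree H B := by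
  refine ⟨fun _ _ => !H 0 0, ?_⟩
  rw [isFree_two_iff]
  rintro i j c c' _ _ ⟨h, _⟩
  cases hH : H 0 0 <;> simp [hH] at h

theorem dist_block_le {K s t : ℕ} (hs0 : 0 < s) (hsK : s < K) (ht0 : 0 < t) (htK : t < K)
    (H : Fin 2 → Fin 2 → Bool) (A : Fin n → Fin n → Bool) :
    dist (blockPattern K s t H) A ≤ dist H A := by
  unfold dist
  apply csInf_le_csInf
  · refine ⟨0, ?_⟩
    rintro x ⟨B, _, rfl⟩
    positivity
  · obtain ⟨B, hB⟩ := exists_isFree_two (n := n) H
    exact ⟨_, B, hB, rfl⟩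
  · rintro x ⟨B, hB, rfl⟩
    exact ⟨B, isFree_block hs0 hsK ht0 htK H B hB, rfl⟩

theorem two_factorial_sq_le (K : ℕ) (hK : 1 ≤ K) :
    2 * (K.factorial * K.factorial) ≤ (4 * K * K) ^ (2 * K) := by
  have h1 : K.factorial ≤ K ^ K := Nat.factorial_le_pow K
  have h2 : K.factorial * K.factorial ≤ K ^ K * K ^ K := Nat.mul_le_mul h1 h1
  have h3 : K ^ K * K ^ K = K ^ (2 * K) := by rw [← pow_add]; congr 1; omega
  have h4 : (4 * K * K) ^ (2 * K) = 4 ^ (2 * K) * (K ^ (2 * K) * K ^ (2 * K)) := by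
    rw [mul_assoc, mul_pow, mul_pow]
  have h5 : 2 ≤ 4 ^ (2 * K) := by
    calc 2 ≤ 4 ^ 1 := by norm_num
      _ ≤ 4 ^ (2 * K) := Nat.pow_le_pow_right (by norm_num) (by omega)
  have h6 : 1 ≤ K ^ (2 * K) := Nat.one_le_pow _ _ (by omega)
  rw [h4]
  calc 2 * (K.factorial * K.factorial) ≤ 2 * K ^ (2 * K) := by rw [← h3]; omega
    _ ≤ 4 ^ (2 * K) * K ^ (2 * K) := Nat.mul_le_mul_right _ h5
    _ = 4 ^ (2 * K) * (K ^ (2 * K) * 1) := by ring
    _ ≤ 4 ^ (2 * K) * (K ^ (2 * K) * K ^ (2 * K)) := by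
        apply Nat.mul_le_mul_left
        exact Nat.mul_le_mul_left _ h6

/-- the final arithmetic -/
theorem block_arith {K : ℕ} (hK : 1 ≤ K) {G nn cc : ℝ} (hG0 : 0 < G) (hG1 : G ≤ 1)
    (hn : 1 ≤ nn) (hcc : 1 ≤ cc)
    (h : G * nn ^ (2 * K) ≤ 2 * K * K * nn ^ (2 * K - 1) +
      (K.factorial : ℝ) * (K.factorial : ℝ) * cc) :
    (G / (4 * K * K)) ^ (2 * K) * nn ^ (2 * K) ≤ cc := by
  have hKR : (1 : ℝ) ≤ K := by exact_mod_cast hK
  have hD : (0 : ℝ) < 4 * K * K := by positivity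
  have hn0 : (0 : ℝ) < nn := by linarith
  set g : ℝ := G / (4 * K * K) with hg
  have hg0 : 0 < g := by positivity
  rw [← mul_pow]
  by_cases hcase : g * nn < 1
  · calc (g * nn) ^ (2 * K) ≤ 1 := pow_le_one₀ (by positivity) hcase.le
      _ ≤ cc := hcc
  · have hge : 1 ≤ g * nn := not_lt.mp hcase
    have h1 : 4 * (K : ℝ) * K ≤ G * nn := by
      have : g * nn = G * nn / (4 * K * K) := by rw [hg]; ring
      rw [this, le_div_iff₀ hD] at hge
      linarith
    have hpow : nn ^ (2 * K) = nn * nn ^ (2 * K - 1) := by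
      rw [← pow_succ']
      congr 1
      omega
    have hp0 : (0 : ℝ) < nn ^ (2 * K - 1) := by positivity
    have h2 : 2 * (K : ℝ) * K * nn ^ (2 * K - 1) ≤ G * nn ^ (2 * K) / 2 := by
      rw [hpow]
      have : G * (nn * nn ^ (2 * K - 1)) / 2 = (G * nn / 2) * nn ^ (2 * K - 1) := by ring
      rw [this]
      apply mul_le_mul_of_nonneg_right _ hp0.le
      linarith
    have h3 : G * nn ^ (2 * K) / 2 ≤ (K.factorial : ℝ) * (K.factorial : ℝ) * cc := by linarith
    have hfac : (2 : ℝ) * ((K.factorial : ℝ) * (K.factorial : ℝ)) ≤ (4 * K * K) ^ (2 * K) := by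
      have := two_factorial_sq_le K hK
      exact_mod_cast this
    have hf0 : (0 : ℝ) < (K.factorial : ℝ) * (K.factorial : ℝ) := by
      have : (0 : ℝ) < (K.factorial : ℝ) := by exact_mod_cast Nat.factorial_pos K
      positivity
    -- g^(2K) ≤ G / (4KK)^(2K)
    have h4 : g ^ (2 * K) ≤ G / (4 * K * K) ^ (2 * K) := by
      rw [hg, div_pow]
      apply div_le_div_of_nonneg_right _ (by positivity)
      calc G ^ (2 * K) ≤ G ^ 1 := pow_le_pow_of_le_one hG0.le hG1 (by omega)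
        _ = G := pow_one G
    have hnpow : (0 : ℝ) < nn ^ (2 * K) := by positivity
    calc (g * nn) ^ (2 * K) = g ^ (2 * K) * nn ^ (2 * K) := mul_pow _ _ _
      _ ≤ G / (4 * K * K) ^ (2 * K) * nn ^ (2 * K) := mul_le_mul_of_nonneg_right h4 hnpow.le
      _ ≤ G / (2 * ((K.factorial : ℝ) * (K.factorial : ℝ))) * nn ^ (2 * K) := by
          apply mul_le_mul_of_nonneg_right _ hnpow.le
          apply div_le_div_of_nonneg_left hG0.le (by positivity) hfac
      _ = (G * nn ^ (2 * K) / 2) / ((K.factorial : ℝ) * (K.factorial : ℝ)) := by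
          field_simp
      _ ≤ cc := by
          rw [div_le_iff₀ hf0]
          linarith

/-- **Polynomial removal bound for block patterns**, with explicit constants. -/
theorem polyRemoval_block {K s t : ℕ} (hs0 : 0 < s) (hsK : s < K) (ht0 : 0 < t) (htK : t < K)
    (H : Fin 2 → Fin 2 → Bool) :
    PolyRemoval (blockPattern K s t H)
      (((1 / 10 ^ 13 : ℝ) ^ (s * (K - s) * t * (K - t)) / (4 * K * K)) ^ (2 * K))
      (10 * (s * (K - s) * t * (K - t)) * (2 * K)) := by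
  intro n hn ε hε0 hε1 A hdist
  have hK : 1 ≤ K := by omega
  set P : ℕ := s * (K - s) * t * (K - t) with hP
  set γ : ℝ := 1 / 10 ^ 13 * ε ^ 10 with hγ
  have hγ0 : 0 < γ := by positivity
  have hγ1 : γ ≤ 1 := by
    have h1 : ε ^ 10 ≤ 1 := pow_le_one₀ hε0.le hε1.le
    have h2 : (1 / 10 ^ 13 : ℝ) ≤ 1 := by norm_num
    calc γ = 1 / 10 ^ 13 * ε ^ 10 := rfl
      _ ≤ 1 * 1 := mul_le_mul h2 h1 (by positivity) (by norm_num)
      _ = 1 := by norm_num
  -- many copies of `H`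
  have hdistH : ε ≤ dist H A := le_trans hdist (dist_block_le hs0 hsK ht0 htK H A)
  have hH := polyRemoval_two H n hn ε hε0 hε1 A hdistH
  rw [copyCount_two] at hH
  have hQ : γ * (n : ℝ) ^ 4 ≤ ((quads H A).card : ℝ) := hH
  -- homomorphisms of the blow-up
  have hhom := hom_count_ge hn s (K - s) t (K - t) hs0 (by omega) ht0 (by omega) (quads H A)
    hγ0.le hQ
  have hexp : s + (K - s) + t + (K - t) = 2 * K := by omega
  rw [hexp] at hhom
  have hle := card_hom_le hs0 hsK ht0 htK H A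
  have hle' : ((univ.filter fun w : (((Fin s → Fin n) × (Fin (K - s) → Fin n)) ×
        (Fin t → Fin n)) × (Fin (K - t) → Fin n) =>
      ∀ i j l m, ((w.1.1.1 i, w.1.1.2 j), (w.1.2 l, w.2 m)) ∈ quads H A).card : ℝ) ≤
      2 * K * K * (n : ℝ) ^ (2 * K - 1) + (K.factorial : ℝ) * (K.factorial : ℝ) *
        (copyCount (blockPattern K s t H) A : ℝ) := by
    exact_mod_cast hle
  have hcc : (1 : ℝ) ≤ (copyCount (blockPattern K s t H) A : ℝ) := by
    have := one_le_copyCount_of_dist_pos (blockPattern K s t H) A (lt_of_lt_of_le hε0 hdist)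
    exact_mod_cast this
  have hnR : (1 : ℝ) ≤ n := by exact_mod_cast hn
  have hmain := block_arith hK (pow_pos hγ0 P) (pow_le_one₀ hγ0.le hγ1) hnR hcc
    (le_trans hhom hle')
  have hc : ((1 / 10 ^ 13 : ℝ) ^ P / (4 * K * K)) ^ (2 * K) * ε ^ (10 * P * (2 * K)) =
      (γ ^ P / (4 * K * K)) ^ (2 * K) := by
    rw [hγ, mul_pow, ← pow_mul]
    have e1 : (1 / 10 ^ 13 : ℝ) ^ P * ε ^ (10 * P) / (4 * K * K) =
        (1 / 10 ^ 13 : ℝ) ^ P / (4 * K * K) * ε ^ (10 * P) := by ring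
    rw [e1, mul_pow, ← pow_mul]
  rw [hc]
  exact hmain

end Vale.Agent.H10.Pattern
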