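import Mathlib

/-!
# Patterns with a `2 × 2` block structure
-/

namespace Vale.Agent.H10.Pattern

/-- The `K × K` pattern with a `2 × 2` block structure obtained from the `2 × 2` pattern `H`:
the first `s` rows and the first `t` columns form the first blocks, and the entry in a block
is the corresponding entry of `H`. -/
def blockPattern (K s t : ℕ) (H : Fin 2 → Fin 2 → Bool) : Fin K → Fin K → Bool :=
  fun i j => H (if (i : ℕ) < s then 0 else 1) (if (j : ℕ) < t then 0 else 1)

end Vale.Agent.H10.Pattern
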