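import Vale.Agent.H10.Pattern.TwoByTwo
import Vale.Agent.H10.Pattern.BlockDefs

/-!
# From homomorphisms of a blow-up to copies of a block pattern
-/

namespace Vale.Agent.H10.Pattern

open Finset

variable {n : ℕ}

/-- gluing a tuple of length `s` and a tuple of length `K - s` -/
def glue (K s : ℕ) (x : Fin s → Fin n) (y : Fin (K - s) → Fin n) : Fin K → Fin n :=
  fun i => if h : (i : ℕ) < s then x ⟨i, h⟩ else y ⟨(i : ℕ) - s, by have := i.isLt; omega⟩

theorem glue_lt {K s : ℕ} (x : Fin s → Fin n) (y : Fin (K - s) → Fin n) (i : Fin K)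
    (h : (i : ℕ) < s) : glue K s x y i = x ⟨i, h⟩ := by
  unfold glue
  rw [dif_pos h]

theorem glue_ge {K s : ℕ} (x : Fin s → Fin n) (y : Fin (K - s) → Fin n) (i : Fin K)
    (h : ¬ (i : ℕ) < s) :
    glue K s x y i = y ⟨(i : ℕ) - s, by have := i.isLt; omega⟩ := by
  unfold glue
  rw [dif_neg h]

theorem glue_strictMono {K s : ℕ} {x : Fin s → Fin n} {y : Fin (K - s) → Fin n}
    (hx : StrictMono x) (hy : StrictMono y) (hxy : ∀ i j, x i < y j) :
    StrictMono (glue K s x y) := by
  intro i j hij
  have hij' : (i : ℕ) < j := hij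
  by_cases hi : (i : ℕ) < s
  · by_cases hj : (j : ℕ) < s
    · rw [glue_lt _ _ i hi, glue_lt _ _ j hj]
      exact hx (Fin.mk_lt_mk.mpr hij')
    · rw [glue_lt _ _ i hi, glue_ge _ _ j hj]
      exact hxy _ _
  · have hj : ¬ (j : ℕ) < s := by omega
    rw [glue_ge _ _ i hi, glue_ge _ _ j hj]
    exact hy (Fin.mk_lt_mk.mpr (by omega))

theorem glue_eq {K s : ℕ} (hs : s ≤ K) {x x' : Fin s → Fin n} {y y' : Fin (K - s) → Fin n}
    (h : glue K s x y = glue K s x' y') : x = x' ∧ y = y' := by
  constructor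
  · funext i
    have hi := i.isLt
    have hiK : (i : ℕ) < K := by omega
    have h1 := congrFun h ⟨i, hiK⟩
    rw [glue_lt x y ⟨i, hiK⟩ hi, glue_lt x' y' ⟨i, hiK⟩ hi] at h1
    exact h1
  · funext j
    have hj := j.isLt
    have hlt : s + (j : ℕ) < K := by omega
    have hge : ¬ (((⟨s + j, hlt⟩ : Fin K) : ℕ) < s) := by
      show ¬ (s + (j : ℕ) < s)
      omega
    have h1 := congrFun h ⟨s + j, hlt⟩
    rw [glue_ge x y ⟨s + j, hlt⟩ hge, glue_ge x' y' ⟨s + j, hlt⟩ hge] at h1
    have e : (⟨((⟨s + j, hlt⟩ : Fin K) : ℕ) - s, by show s + (j : ℕ) - s < K - s; omega⟩ :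
        Fin (K - s)) = j := by
      apply Fin.ext
      show s + (j : ℕ) - s = j
      omega
    rw [e] at h1
    exact h1

/-- sorted tuples whose quadruples all carry `H` glue to a copy of the block pattern -/
theorem glue_mem_copies {K s t : ℕ} (hs0 : 0 < s) (hsK : s < K) (ht0 : 0 < t) (htK : t < K)
    (H : Fin 2 → Fin 2 → Bool) (A : Fin n → Fin n → Bool)
    (x : Fin s → Fin n) (y : Fin (K - s) → Fin n) (u : Fin t → Fin n) (v : Fin (K - t) → Fin n)
    (hx : StrictMono x) (hy : StrictMono y) (hu : StrictMono u) (hv : StrictMono v)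
    (hQ : ∀ i j l m, ((x i, y j), (u l, v m)) ∈ quads H A) :
    (glue K s x y, glue K t u v) ∈ copies (blockPattern K s t H) A := by
  have i0 : Fin s := ⟨0, hs0⟩
  have j0 : Fin (K - s) := ⟨0, by omega⟩
  have l0 : Fin t := ⟨0, ht0⟩
  have m0 : Fin (K - t) := ⟨0, by omega⟩
  have hq : ∀ i j l m, x i < y j ∧ u l < v m ∧ A (x i) (u l) = H 0 0 ∧
      A (x i) (v m) = H 0 1 ∧ A (y j) (u l) = H 1 0 ∧ A (y j) (v m) = H 1 1 := by
    intro i j l m
    have := hQ i j l m
    rw [quads, mem_filter] at this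
    exact this.2
  refine ⟨glue_strictMono hx hy (fun i j => (hq i j l0 m0).1),
    glue_strictMono hu hv (fun l m => (hq i0 j0 l m).2.1), ?_⟩
  intro i j
  show A (glue K s x y i) (glue K t u v j) =
    H (if (i : ℕ) < s then 0 else 1) (if (j : ℕ) < t then 0 else 1)
  by_cases hi : (i : ℕ) < s <;> by_cases hj : (j : ℕ) < t
  · rw [glue_lt _ _ i hi, glue_lt _ _ j hj, if_pos hi, if_pos hj]
    exact (hq _ j0 _ m0).2.2.1
  · rw [glue_lt _ _ i hi, glue_ge _ _ j hj, if_pos hi, if_neg hj]
    exact (hq _ j0 l0 _).2.2.2.1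
  · rw [glue_ge _ _ i hi, glue_lt _ _ j hj, if_neg hi, if_pos hj]
    exact (hq i0 _ _ m0).2.2.2.2.1
  · rw [glue_ge _ _ i hi, glue_ge _ _ j hj, if_neg hi, if_neg hj]
    exact (hq i0 _ l0 _).2.2.2.2.2

theorem pow_le_descFactorial_add (n a : ℕ) :
    n ^ a ≤ n.descFactorial a + a * a * n ^ (a - 1) := by
  induction a with
  | zero => simp
  | succ a ih =>
    rw [Nat.descFactorial_succ, Nat.add_sub_cancel]
    have h1 : n.descFactorial a ≤ n ^ a := Nat.descFactorial_le_pow n a
    have h2 : n * n.descFactorial a ≤ (n - a) * n.descFactorial a + a * n ^ a := by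
      have h3 : n ≤ (n - a) + a := by omega
      calc n * n.descFactorial a ≤ ((n - a) + a) * n.descFactorial a :=
            Nat.mul_le_mul_right _ h3
        _ = (n - a) * n.descFactorial a + a * n.descFactorial a := by ring
        _ ≤ (n - a) * n.descFactorial a + a * n ^ a := by
            have := Nat.mul_le_mul_left a h1
            omega
    have h3 : n * (a * a * n ^ (a - 1)) ≤ a * a * n ^ a := by
      rcases Nat.eq_zero_or_pos a with rfl | ha
      · simp
      · have h4 : n ^ a = n * n ^ (a - 1) := by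
          rw [← pow_succ']
          congr 1
          omega
        rw [h4]
        apply le_of_eq
        ring
    have h5 : n ^ (a + 1) = n * n ^ a := pow_succ' n a
    have h6 : n * n ^ a ≤ n * (n.descFactorial a + a * a * n ^ (a - 1)) :=
      Nat.mul_le_mul_left _ ih
    have h7 : n * (n.descFactorial a + a * a * n ^ (a - 1)) =
        n * n.descFactorial a + n * (a * a * n ^ (a - 1)) := by ring
    have h8 : (a + 1) * (a + 1) * n ^ a = a * a * n ^ a + a * n ^ a + (a * n ^ a + n ^ a) := by
      ring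
    omega

/-- the number of non-injective tuples -/
theorem card_not_injective_le (n a : ℕ) :
    (univ.filter fun x : Fin a → Fin n => ¬ Function.Injective x).card ≤
      a * a * n ^ (a - 1) := by
  classical
  have h1 : (univ.filter fun x : Fin a → Fin n => Function.Injective x).card =
      n.descFactorial a := by
    rw [← Fintype.card_subtype,
      Fintype.card_congr (Equiv.subtypeInjectiveEquivEmbedding (Fin a) (Fin n)),
      Fintype.card_embedding_eq, Fintype.card_fin, Fintype.card_fin]
  have h2 := card_filter_add_card_filter_not (s := (univ : Finset (Fin a → Fin n)))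
    (fun x : Fin a → Fin n => Function.Injective x)
  rw [h1, card_univ, Fintype.card_fun, Fintype.card_fin, Fintype.card_fin] at h2
  have := pow_le_descFactorial_add n a
  omega

end Vale.Agent.H10.Pattern
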