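import Vale.Agent.H10.Pattern.BlockCopy

/-!
# Counting copies of a block pattern through homomorphisms of the blow-up
-/

namespace Vale.Agent.H10.Pattern

open Finset

variable {n : ℕ}

theorem card_filter_fst {α β : Type*} [Fintype α] [Fintype β] (p : α → Prop) [DecidablePred p] :
    (univ.filter fun w : α × β => p w.1).card = (univ.filter p).card * Fintype.card β := by
  classical
  have h : (univ.filter fun w : α × β => p w.1) = (univ.filter p) ×ˢ (univ : Finset β) := by
    ext w
    simp
  rw [h, card_product, card_univ]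

theorem card_filter_snd {α β : Type*} [Fintype α] [Fintype β] (p : β → Prop) [DecidablePred p] :
    (univ.filter fun w : α × β => p w.2).card = Fintype.card α * (univ.filter p).card := by
  classical
  have h : (univ.filter fun w : α × β => p w.2) = (univ : Finset α) ×ˢ (univ.filter p) := by
    ext w
    simp
  rw [h, card_product, card_univ]

theorem sq_split {s K : ℕ} (h : s ≤ K) : s * s + (K - s) * (K - s) ≤ K * K := by
  obtain ⟨d, rfl⟩ := Nat.exists_eq_add_of_le h
  rw [Nat.add_sub_cancel_left]
  nlinarith [Nat.zero_le (s * d)]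

theorem pow_split {s K : ℕ} (n : ℕ) (h0 : 0 < s) (h : s ≤ K) :
    n ^ (s - 1) * n ^ (K - s) = n ^ (K - 1) := by
  rw [← pow_add]
  congr 1
  omega

theorem pow_split' {s K : ℕ} (n : ℕ) (h : s ≤ K) : n ^ s * n ^ (K - s) = n ^ K := by
  rw [← pow_add]
  congr 1
  omega

theorem pow_split2 {K : ℕ} (n : ℕ) (h0 : 0 < K) : n ^ (K - 1) * n ^ K = n ^ (2 * K - 1) := by
  rw [← pow_add]
  congr 1
  omega

/-- the tuples with a non-injective component -/
theorem card_nonInj_le {K s t : ℕ} (hs0 : 0 < s) (hsK : s < K) (ht0 : 0 < t) (htK : t < K) :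
    (univ.filter fun w : (((Fin s → Fin n) × (Fin (K - s) → Fin n)) × (Fin t → Fin n)) ×
        (Fin (K - t) → Fin n) =>
      ¬ (Function.Injective w.1.1.1 ∧ Function.Injective w.1.1.2 ∧
        Function.Injective w.1.2 ∧ Function.Injective w.2)).card ≤
      2 * K * K * n ^ (2 * K - 1) := by
  classical
  have hsub : (univ.filter fun w : (((Fin s → Fin n) × (Fin (K - s) → Fin n)) ×
        (Fin t → Fin n)) × (Fin (K - t) → Fin n) =>
      ¬ (Function.Injective w.1.1.1 ∧ Function.Injective w.1.1.2 ∧
        Function.Injective w.1.2 ∧ Function.Injective w.2)) ⊆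
      ((univ.filter fun w : (((Fin s → Fin n) × (Fin (K - s) → Fin n)) ×
        (Fin t → Fin n)) × (Fin (K - t) → Fin n) => ¬ Function.Injective w.1.1.1) ∪
      (univ.filter fun w : (((Fin s → Fin n) × (Fin (K - s) → Fin n)) ×
        (Fin t → Fin n)) × (Fin (K - t) → Fin n) => ¬ Function.Injective w.1.1.2)) ∪
      ((univ.filter fun w : (((Fin s → Fin n) × (Fin (K - s) → Fin n)) ×
        (Fin t → Fin n)) × (Fin (K - t) → Fin n) => ¬ Function.Injective w.1.2) ∪
      (univ.filter fun w : (((Fin s → Fin n) × (Fin (K - s) → Fin n)) ×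
        (Fin t → Fin n)) × (Fin (K - t) → Fin n) => ¬ Function.Injective w.2)) := by
    intro w hw
    rw [mem_filter] at hw
    simp only [mem_union, mem_filter, mem_univ, true_and]
    by_contra hcon
    rw [not_or, not_or, not_or] at hcon
    obtain ⟨⟨h1, h2⟩, h3, h4⟩ := hcon
    exact hw.2 ⟨not_not.mp h1, not_not.mp h2, not_not.mp h3, not_not.mp h4⟩
  have c1 : (univ.filter fun w : (((Fin s → Fin n) × (Fin (K - s) → Fin n)) ×
        (Fin t → Fin n)) × (Fin (K - t) → Fin n) => ¬ Function.Injective w.1.1.1).card ≤
      s * s * n ^ (2 * K - 1) := by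
    rw [card_filter_fst (fun w : ((Fin s → Fin n) × (Fin (K - s) → Fin n)) × (Fin t → Fin n) =>
        ¬ Function.Injective w.1.1),
      card_filter_fst (fun w : (Fin s → Fin n) × (Fin (K - s) → Fin n) =>
        ¬ Function.Injective w.1),
      card_filter_fst (fun x : Fin s → Fin n => ¬ Function.Injective x),
      Fintype.card_fun, Fintype.card_fun, Fintype.card_fun, Fintype.card_fin, Fintype.card_fin,
      Fintype.card_fin, Fintype.card_fin]
    calc (univ.filter fun x : Fin s → Fin n => ¬ Function.Injective x).card * n ^ (K - s) *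
          n ^ t * n ^ (K - t)
        ≤ s * s * n ^ (s - 1) * n ^ (K - s) * n ^ t * n ^ (K - t) := by
          gcongr
          exact card_not_injective_le n s
      _ = s * s * (n ^ (s - 1) * n ^ (K - s)) * (n ^ t * n ^ (K - t)) := by ring
      _ = s * s * n ^ (2 * K - 1) := by
          rw [pow_split n hs0 hsK.le, pow_split' n htK.le, mul_assoc, pow_split2 n (by omega)]
  have c2 : (univ.filter fun w : (((Fin s → Fin n) × (Fin (K - s) → Fin n)) ×
        (Fin t → Fin n)) × (Fin (K - t) → Fin n) => ¬ Function.Injective w.1.1.2).card ≤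
      (K - s) * (K - s) * n ^ (2 * K - 1) := by
    rw [card_filter_fst (fun w : ((Fin s → Fin n) × (Fin (K - s) → Fin n)) × (Fin t → Fin n) =>
        ¬ Function.Injective w.1.2),
      card_filter_fst (fun w : (Fin s → Fin n) × (Fin (K - s) → Fin n) =>
        ¬ Function.Injective w.2),
      card_filter_snd (fun x : Fin (K - s) → Fin n => ¬ Function.Injective x),
      Fintype.card_fun, Fintype.card_fun, Fintype.card_fun, Fintype.card_fin, Fintype.card_fin,
      Fintype.card_fin, Fintype.card_fin]
    calc n ^ s * (univ.filter fun x : Fin (K - s) → Fin n => ¬ Function.Injective x).card *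
          n ^ t * n ^ (K - t)
        ≤ n ^ s * ((K - s) * (K - s) * n ^ (K - s - 1)) * n ^ t * n ^ (K - t) := by
          gcongr
          exact card_not_injective_le n (K - s)
      _ = (K - s) * (K - s) * (n ^ (K - s - 1) * n ^ s) * (n ^ t * n ^ (K - t)) := by ring
      _ = (K - s) * (K - s) * n ^ (2 * K - 1) := by
          have e : n ^ (K - s - 1) * n ^ s = n ^ (K - 1) := by
            rw [← pow_add]; congr 1; omega
          rw [e, pow_split' n htK.le, mul_assoc, pow_split2 n (by omega)]
  have c3 : (univ.filter fun w : (((Fin s → Fin n) × (Fin (K - s) → Fin n)) ×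
        (Fin t → Fin n)) × (Fin (K - t) → Fin n) => ¬ Function.Injective w.1.2).card ≤
      t * t * n ^ (2 * K - 1) := by
    rw [card_filter_fst (fun w : ((Fin s → Fin n) × (Fin (K - s) → Fin n)) × (Fin t → Fin n) =>
        ¬ Function.Injective w.2),
      card_filter_snd (fun x : Fin t → Fin n => ¬ Function.Injective x),
      Fintype.card_prod, Fintype.card_fun, Fintype.card_fun, Fintype.card_fun, Fintype.card_fin,
      Fintype.card_fin, Fintype.card_fin, Fintype.card_fin]
    calc n ^ s * n ^ (K - s) * (univ.filter fun x : Fin t → Fin n => ¬ Function.Injective x).card *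
          n ^ (K - t)
        ≤ n ^ s * n ^ (K - s) * (t * t * n ^ (t - 1)) * n ^ (K - t) := by
          gcongr
          exact card_not_injective_le n t
      _ = t * t * (n ^ (t - 1) * n ^ (K - t)) * (n ^ s * n ^ (K - s)) := by ring
      _ = t * t * n ^ (2 * K - 1) := by
          rw [pow_split n ht0 htK.le, pow_split' n hsK.le, mul_assoc, pow_split2 n (by omega)]
  have c4 : (univ.filter fun w : (((Fin s → Fin n) × (Fin (K - s) → Fin n)) ×
        (Fin t → Fin n)) × (Fin (K - t) → Fin n) => ¬ Function.Injective w.2).card ≤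
      (K - t) * (K - t) * n ^ (2 * K - 1) := by
    rw [card_filter_snd (fun x : Fin (K - t) → Fin n => ¬ Function.Injective x),
      Fintype.card_prod, Fintype.card_prod, Fintype.card_fun, Fintype.card_fun,
      Fintype.card_fun, Fintype.card_fin, Fintype.card_fin, Fintype.card_fin, Fintype.card_fin]
    calc n ^ s * n ^ (K - s) * n ^ t *
          (univ.filter fun x : Fin (K - t) → Fin n => ¬ Function.Injective x).card
        ≤ n ^ s * n ^ (K - s) * n ^ t * ((K - t) * (K - t) * n ^ (K - t - 1)) := by
          gcongr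
          exact card_not_injective_le n (K - t)
      _ = (K - t) * (K - t) * (n ^ (K - t - 1) * n ^ t) * (n ^ s * n ^ (K - s)) := by ring
      _ = (K - t) * (K - t) * n ^ (2 * K - 1) := by
          have e : n ^ (K - t - 1) * n ^ t = n ^ (K - 1) := by
            rw [← pow_add]; congr 1; omega
          rw [e, pow_split' n hsK.le, mul_assoc, pow_split2 n (by omega)]
  refine le_trans (card_le_card hsub) ?_
  refine le_trans (card_union_le _ _) ?_
  have u1 := card_union_le
    (univ.filter fun w : (((Fin s → Fin n) × (Fin (K - s) → Fin n)) ×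
        (Fin t → Fin n)) × (Fin (K - t) → Fin n) => ¬ Function.Injective w.1.1.1)
    (univ.filter fun w : (((Fin s → Fin n) × (Fin (K - s) → Fin n)) ×
        (Fin t → Fin n)) × (Fin (K - t) → Fin n) => ¬ Function.Injective w.1.1.2)
  have u2 := card_union_le
    (univ.filter fun w : (((Fin s → Fin n) × (Fin (K - s) → Fin n)) ×
        (Fin t → Fin n)) × (Fin (K - t) → Fin n) => ¬ Function.Injective w.1.2)
    (univ.filter fun w : (((Fin s → Fin n) × (Fin (K - s) → Fin n)) ×
        (Fin t → Fin n)) × (Fin (K - t) → Fin n) => ¬ Function.Injective w.2)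
  have q1 := sq_split hsK.le
  have q2 := sq_split htK.le
  have q3 : (s * s + (K - s) * (K - s) + (t * t + (K - t) * (K - t))) * n ^ (2 * K - 1) ≤
      2 * K * K * n ^ (2 * K - 1) := by
    apply Nat.mul_le_mul_right
    have : 2 * K * K = K * K + K * K := by ring
    omega
  have q4 : (s * s + (K - s) * (K - s) + (t * t + (K - t) * (K - t))) * n ^ (2 * K - 1) =
      s * s * n ^ (2 * K - 1) + (K - s) * (K - s) * n ^ (2 * K - 1) +
        (t * t * n ^ (2 * K - 1) + (K - t) * (K - t) * n ^ (2 * K - 1)) := by ring
  omega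

end Vale.Agent.H10.Pattern
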