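import Mathlib

/-!
# Ordered copies of a binary pattern in a binary matrix: definitions

Binary `n × n` matrices are functions `Fin n → Fin n → Bool` (`true` is the entry `1`), with
rows and columns in the order of `Fin n`.
-/

namespace Vale.Agent.H10.Pattern

open Finset

/-- The ordered copies of the `k × k` pattern `H` in the `n × n` matrix `A`: a strictly
increasing choice of rows and a strictly increasing choice of columns on which `A` equals `H`
entry by entry. -/
def copies {k n : ℕ} (H : Fin k → Fin k → Bool) (A : Fin n → Fin n → Bool) :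
    Set ((Fin k → Fin n) × (Fin k → Fin n)) :=
  {p | StrictMono p.1 ∧ StrictMono p.2 ∧ ∀ i j, A (p.1 i) (p.2 j) = H i j}

/-- `N_H(A)`, the number of ordered copies of `H` in `A`. -/
noncomputable def copyCount {k n : ℕ} (H : Fin k → Fin k → Bool) (A : Fin n → Fin n → Bool) : ℕ :=
  (copies H A).ncard

/-- `A` is `H`-free: it has no ordered copy of `H`. -/
def IsFree {k n : ℕ} (H : Fin k → Fin k → Bool) (A : Fin n → Fin n → Bool) : Prop :=
  copies H A = ∅

/-- `dist_H(A)`: the least number of entries in which `A` differs from an `H`-free matrix,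
divided by `n²`. -/
noncomputable def dist {k n : ℕ} (H : Fin k → Fin k → Bool) (A : Fin n → Fin n → Bool) : ℝ :=
  sInf {x : ℝ | ∃ B : Fin n → Fin n → Bool, IsFree H B ∧
    x = ((univ.filter fun p : Fin n × Fin n => A p.1 p.2 ≠ B p.1 p.2).card : ℝ) / (n : ℝ) ^ 2}

/-- The polynomial removal bound for the pattern `H` with constants `c` and `C`: every
`n × n` matrix `A` with `dist_H(A) ≥ ε` has at least `c ε^C n^(2k)` ordered copies of `H`. -/
def PolyRemoval {k : ℕ} (H : Fin k → Fin k → Bool) (c : ℝ) (C : ℕ) : Prop :=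
  ∀ n : ℕ, 1 ≤ n → ∀ ε : ℝ, 0 < ε → ε < 1 → ∀ A : Fin n → Fin n → Bool,
    ε ≤ dist H A → c * ε ^ C * (n : ℝ) ^ (2 * k) ≤ (copyCount H A : ℝ)

end Vale.Agent.H10.Pattern
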