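import Vale.Agent.H10.Pattern.Basic

/-!
# Copies of a `2 × 2` pattern as quadruples of indices
-/

namespace Vale.Agent.H10.Pattern

open Finset

variable {n : ℕ}

/-- the quadruples `((i, j), (c, c'))`, `i < j`, `c < c'`, carrying a copy of the `2 × 2`
pattern `H` -/
def quads (H : Fin 2 → Fin 2 → Bool) (A : Fin n → Fin n → Bool) :
    Finset ((Fin n × Fin n) × (Fin n × Fin n)) :=
  univ.filter fun x => x.1.1 < x.1.2 ∧ x.2.1 < x.2.2 ∧ A x.1.1 x.2.1 = H 0 0 ∧
    A x.1.1 x.2.2 = H 0 1 ∧ A x.1.2 x.2.1 = H 1 0 ∧ A x.1.2 x.2.2 = H 1 1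

theorem strictMono_two {f : Fin 2 → Fin n} : StrictMono f ↔ f 0 < f 1 := by
  constructor
  · intro h
    exact h (by decide)
  · intro h i j hij
    fin_cases i <;> fin_cases j
    · exact absurd hij (by decide)
    · exact h
    · exact absurd hij (by decide)
    · exact absurd hij (by decide)

theorem mem_copies_two {H : Fin 2 → Fin 2 → Bool} {A : Fin n → Fin n → Bool}
    {p : (Fin 2 → Fin n) × (Fin 2 → Fin n)} :
    p ∈ copies H A ↔ p.1 0 < p.1 1 ∧ p.2 0 < p.2 1 ∧ A (p.1 0) (p.2 0) = H 0 0 ∧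
      A (p.1 0) (p.2 1) = H 0 1 ∧ A (p.1 1) (p.2 0) = H 1 0 ∧ A (p.1 1) (p.2 1) = H 1 1 := by
  constructor
  · rintro ⟨h1, h2, h3⟩
    exact ⟨strictMono_two.mp h1, strictMono_two.mp h2, h3 0 0, h3 0 1, h3 1 0, h3 1 1⟩
  · rintro ⟨h1, h2, e1, e2, e3, e4⟩
    refine ⟨strictMono_two.mpr h1, strictMono_two.mpr h2, ?_⟩
    intro i j
    fin_cases i <;> fin_cases j
    · exact e1
    · exact e2
    · exact e3
    · exact e4

/-- the number of copies of a `2 × 2` pattern is the number of quadruples carrying it -/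
theorem copyCount_two (H : Fin 2 → Fin 2 → Bool) (A : Fin n → Fin n → Bool) :
    copyCount H A = (quads H A).card := by
  classical
  rw [copyCount, ← Set.ncard_coe_finset]
  symm
  apply Set.ncard_congr (fun x _ =>
    ((![x.1.1, x.1.2] : Fin 2 → Fin n), (![x.2.1, x.2.2] : Fin 2 → Fin n)))
  · intro x hx
    rw [mem_coe, quads, mem_filter] at hx
    rw [mem_copies_two]
    exact hx.2
  · intro x y _ _ hxy
    simp only [Prod.mk.injEq] at hxy
    obtain ⟨ha, hb⟩ := hxy
    have a0 := congrFun ha 0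
    have a1 := congrFun ha 1
    have b0 := congrFun hb 0
    have b1 := congrFun hb 1
    simp only [Matrix.cons_val_zero, Matrix.cons_val_one] at a0 a1 b0 b1
    exact Prod.ext (Prod.ext a0 a1) (Prod.ext b0 b1)
  · intro p hp
    refine ⟨((p.1 0, p.1 1), (p.2 0, p.2 1)), ?_, ?_⟩
    · rw [mem_coe, quads, mem_filter]
      exact ⟨mem_univ _, mem_copies_two.mp hp⟩
    · apply Prod.ext
      · funext i
        fin_cases i <;> rfl
      · funext i
        fin_cases i <;> rfl

theorem isFree_two_iff (H : Fin 2 → Fin 2 → Bool) (A : Fin n → Fin n → Bool) :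
    IsFree H A ↔ ∀ i j c c', i < j → c < c' →
      ¬ (A i c = H 0 0 ∧ A i c' = H 0 1 ∧ A j c = H 1 0 ∧ A j c' = H 1 1) := by
  rw [IsFree, Set.eq_empty_iff_forall_notMem]
  constructor
  · intro h i j c c' hij hcc hA
    apply h ((![i, j] : Fin 2 → Fin n), (![c, c'] : Fin 2 → Fin n))
    rw [mem_copies_two]
    exact ⟨hij, hcc, hA⟩
  · intro h p hp
    rw [mem_copies_two] at hp
    exact h _ _ _ _ hp.1 hp.2.1 hp.2.2

end Vale.Agent.H10.Pattern
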